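import Mathlib

/-! Abstract free energies of pattern models. -/

namespace Vale.Agent.P157

open MeasureTheory Real Finset

variable {Γ Γ' Y Y' κ κ' : Type} [MeasurableSpace Γ] [MeasurableSpace Γ'] [MeasurableSpace Y]
  [MeasurableSpace Y'] [Fintype κ] [Fintype κ']

/-- bounded measurable log-potential -/
def Bd (L : ℝ) (φ : Γ → Y → ℝ) : Prop :=
  Measurable (fun z : Γ × Y => φ z.1 z.2) ∧ ∀ g y, |φ g y| ≤ L

/-- log partition function -/
noncomputable def LZ (μ : Measure Y) (H : Y → ℝ) : ℝ := log (∫ y, exp (H y) ∂μ)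

/-- expected log partition function -/
noncomputable def FE (P : Measure Γ) (μ : Measure Y) (h : κ → Γ → Y → ℝ) : ℝ :=
  ∫ G : κ → Γ, LZ μ (fun y => ∑ a, h a (G a) y) ∂(Measure.pi fun _ => P)

/-- one pattern -/
noncomputable def one (P : Measure Γ) (μ : Measure Y) (φ : Γ → Y → ℝ) : ℝ :=
  ∫ g, LZ μ (φ g) ∂P

theorem int_exp {μ : Measure Y} [IsProbabilityMeasure μ] {H : Y → ℝ} (hm : Measurable H) {B : ℝ}
    (hB : ∀ y, |H y| ≤ B) : Integrable (fun y => exp (H y)) μ :=
  Integrable.of_bound (measurable_exp.comp hm).aestronglyMeasurable (exp B)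
    (Filter.Eventually.of_forall fun y => by
      rw [Real.norm_eq_abs, abs_of_pos (exp_pos _)]
      exact exp_le_exp.2 ((le_abs_self _).trans (hB y)))

theorem Z_pos {μ : Measure Y} [IsProbabilityMeasure μ] {H : Y → ℝ} (hm : Measurable H) {B : ℝ}
    (hB : ∀ y, |H y| ≤ B) : 0 < ∫ y, exp (H y) ∂μ :=
  integral_exp_pos (int_exp hm hB)

theorem LZ_le {μ : Measure Y} [IsProbabilityMeasure μ] {H H' : Y → ℝ} (hm : Measurable H)
    (hm' : Measurable H') {B B' D : ℝ} (hB : ∀ y, |H y| ≤ B) (hB' : ∀ y, |H' y| ≤ B')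
    (h : ∀ y, H y ≤ H' y + D) : LZ μ H ≤ LZ μ H' + D := by
  unfold LZ
  rw [← log_exp D, ← log_mul (Z_pos hm' hB').ne' (exp_pos _).ne']
  refine log_le_log (Z_pos hm hB) ?_
  rw [← integral_mul_const]
  refine integral_mono (int_exp hm hB) ((int_exp hm' hB').mul_const _) fun y => ?_
  simp only [← exp_add]
  exact exp_le_exp.2 (h y)

theorem LZ_zero (μ : Measure Y) [IsProbabilityMeasure μ] : LZ μ (fun _ => 0) = 0 := by
  simp [LZ]

theorem abs_LZ_le {μ : Measure Y} [IsProbabilityMeasure μ] {H : Y → ℝ} (hm : Measurable H)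
    {B : ℝ} (hB : ∀ y, |H y| ≤ B) : |LZ μ H| ≤ B := by
  have h1 := LZ_le (μ := μ) hm measurable_const hB (B' := 0) (H' := fun _ => 0) (D := B)
    (fun _ => by simp) fun y => by simpa using (le_abs_self _).trans (hB y)
  have h2 := LZ_le (μ := μ) measurable_const hm (B := 0) (H := fun _ => 0) (D := B)
    (fun _ => by simp) hB fun y => by have := neg_abs_le (H y); have := hB y; linarith
  rw [LZ_zero] at h1 h2
  exact abs_le.2 ⟨by linarith, by linarith⟩

theorem meas_LZ (μ : Measure Y) [IsProbabilityMeasure μ] {H : Γ → Y → ℝ}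
    (hm : Measurable fun z : Γ × Y => H z.1 z.2) : Measurable fun g => LZ μ (H g) :=
  measurable_log.comp
    ((measurable_exp.comp hm).stronglyMeasurable.integral_prod_right' (ν := μ)).measurable

theorem Bd.meas {L : ℝ} {φ : Γ → Y → ℝ} (h : Bd L φ) (g : Γ) : Measurable (φ g) :=
  h.1.comp (measurable_prodMk_left (x := g))

theorem Bd.int {L : ℝ} {φ : Γ → Y → ℝ} (h : Bd L φ) (P : Measure Γ) [IsProbabilityMeasure P]
    (μ : Measure Y) [IsProbabilityMeasure μ] : Integrable (fun g => LZ μ (φ g)) P :=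
  Integrable.of_bound (meas_LZ μ h.1).aestronglyMeasurable L
    (Filter.Eventually.of_forall fun g => abs_LZ_le (h.meas g) (h.2 g))

theorem bd_sum {L : ℝ} {h : κ → Γ → Y → ℝ} (hh : ∀ a, Bd L (h a)) (S : Finset κ) :
    Bd (S.card * L) (fun (G : κ → Γ) y => ∑ a ∈ S, h a (G a) y) := by
  refine ⟨Finset.measurable_sum _ fun a _ => (hh a).1.comp
    (f := fun z : (κ → Γ) × Y => (z.1 a, z.2))
    (((measurable_pi_apply a).comp measurable_fst).prodMk measurable_snd), fun G y => ?_⟩
  refine (abs_sum_le_sum_abs _ _).trans ?_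
  simpa using sum_le_card_nsmul S _ L fun a _ => (hh a).2 (G a) y

theorem mp_update [DecidableEq κ] (P : Measure Γ) [IsProbabilityMeasure P] (c : κ) :
    MeasurePreserving (fun z : (κ → Γ) × Γ => Function.update z.1 c z.2)
      ((Measure.pi fun _ => P).prod P) (Measure.pi fun _ => P) := by
  refine ⟨measurable_update', (Measure.pi_eq fun s hs => ?_).symm⟩
  rw [Measure.map_apply measurable_update' (MeasurableSet.univ_pi hs)]
  have : (fun z : (κ → Γ) × Γ => Function.update z.1 c z.2) ⁻¹' Set.univ.pi s =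
      (Set.univ.pi (Function.update s c Set.univ)) ×ˢ s c := by
    ext ⟨G, g⟩
    simp only [Set.mem_preimage, Set.mem_pi, Set.mem_univ, true_imp_iff, Set.mem_prod]
    constructor
    · intro h
      refine ⟨fun i => ?_, by simpa using h c⟩
      by_cases hi : i = c
      · subst hi; simp
      · simpa [Function.update_of_ne hi] using h i
    · rintro ⟨h1, h2⟩ i
      by_cases hi : i = c
      · subst hi; simpa using h2
      · simpa [Function.update_of_ne hi] using h1 i
  rw [this, Measure.prod_prod, Measure.pi_pi, ← mul_prod_erase univ _ (mem_univ c),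
    ← mul_prod_erase univ (fun i => P (s i)) (mem_univ c)]
  simp only [Function.update_self, measure_univ, one_mul]
  rw [mul_comm]
  congr 1
  exact prod_congr rfl fun i hi => by rw [Function.update_of_ne (ne_of_mem_erase hi)]

theorem mp_comp (P : Measure Γ) [IsProbabilityMeasure P] {e : κ' → κ}
    (he : Function.Injective e) :
    MeasurePreserving (fun G : κ → Γ => fun a => G (e a)) (Measure.pi fun _ => P)
      (Measure.pi fun _ => P) := by
  classical
  have hm : Measurable (fun G : κ → Γ => fun a => G (e a)) :=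
    measurable_pi_lambda _ fun a => measurable_pi_apply _
  refine ⟨hm, (Measure.pi_eq fun s hs => ?_).symm⟩
  rw [Measure.map_apply hm (MeasurableSet.univ_pi hs)]
  have : (fun G : κ → Γ => fun a => G (e a)) ⁻¹' Set.univ.pi s =
      Set.univ.pi (Function.extend e s fun _ => Set.univ) := by
    ext G
    simp only [Set.mem_preimage, Set.mem_pi, Set.mem_univ, true_imp_iff]
    constructor
    · intro h i
      by_cases hi : ∃ a, e a = i
      · obtain ⟨a, rfl⟩ := hi
        rw [he.extend_apply]; exact h a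
      · rw [Function.extend_apply' _ _ _ hi]; trivial
    · intro h a
      have := h (e a)
      rwa [he.extend_apply] at this
  rw [this, Measure.pi_pi]
  symm
  refine prod_bij_ne_one (fun a _ _ => e a) (fun _ _ _ => mem_univ _)
    (fun _ _ _ _ _ _ h => he h) (fun i _ hi => ?_) (fun a _ _ => by rw [he.extend_apply])
  by_cases h : ∃ a, e a = i
  · obtain ⟨a, rfl⟩ := h
    exact ⟨a, mem_univ _, by rwa [he.extend_apply] at hi, rfl⟩
  · rw [Function.extend_apply' _ _ _ h] at hi
    simp at hi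

theorem mp_int {α β : Type} [MeasurableSpace α] [MeasurableSpace β] {μ : Measure α}
    {ν : Measure β} {T : α → β} (h : MeasurePreserving T μ ν) {F : β → ℝ} (hF : Measurable F) :
    ∫ x, F (T x) ∂μ = ∫ y, F y ∂ν := by
  rw [← h.map_eq, integral_map h.measurable.aemeasurable hF.aestronglyMeasurable]

theorem int_comb {α : Type} [MeasurableSpace α] {μ : Measure α} [IsProbabilityMeasure μ]
    {f0 f1 f2 : α → ℝ} (i0 : Integrable f0 μ) (i1 : Integrable f1 μ) (i2 : Integrable f2 μ)
    {p q ε : ℝ} (H : ∀ x, p * f1 x + q * f2 x - ε ≤ f0 x) :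
    p * ∫ x, f1 x ∂μ + q * ∫ x, f2 x ∂μ - ε ≤ ∫ x, f0 x ∂μ := by
  have h := integral_mono (f := fun x => p * f1 x + q * f2 x - ε)
    (((i1.const_mul p).add (i2.const_mul q)).sub (integrable_const ε)) i0 H
  rw [integral_sub (f := fun x => p * f1 x + q * f2 x) ((i1.const_mul p).add (i2.const_mul q))
    (integrable_const ε), integral_add (i1.const_mul p) (i2.const_mul q), integral_const_mul,
    integral_const_mul] at h
  simpa using h

variable {P : Measure Γ} [IsProbabilityMeasure P] {μ : Measure Y} [IsProbabilityMeasure μ] {L : ℝ}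

theorem FE_split [DecidableEq κ] {h : κ → Γ → Y → ℝ} (hh : ∀ a, Bd L (h a)) (c : κ) :
    Integrable (fun G : κ → Γ => LZ μ (fun y => ∑ a ∈ univ.erase c, h a (G a) y) +
      one P (μ.tilted fun y => ∑ a ∈ univ.erase c, h a (G a) y) (h c)) (Measure.pi fun _ => P) ∧
    FE P μ h = ∫ G : κ → Γ, (LZ μ (fun y => ∑ a ∈ univ.erase c, h a (G a) y) +
      one P (μ.tilted fun y => ∑ a ∈ univ.erase c, h a (G a) y) (h c))
      ∂(Measure.pi fun _ => P) := by
  have hb := bd_sum hh univ
  have hI : Integrable (fun z : (κ → Γ) × Γ =>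
      LZ μ (fun y => ∑ a, h a (Function.update z.1 c z.2 a) y)) ((Measure.pi fun _ => P).prod P) :=
    (mp_update P c).integrable_comp_of_integrable (hb.int _ μ)
  have key : ∀ G : κ → Γ, ∫ g, LZ μ (fun y => ∑ a, h a (Function.update G c g a) y) ∂P =
      LZ μ (fun y => ∑ a ∈ univ.erase c, h a (G a) y) +
      one P (μ.tilted fun y => ∑ a ∈ univ.erase c, h a (G a) y) (h c) := by
    intro G
    have hR := bd_sum hh (univ.erase c)
    haveI := isProbabilityMeasure_tilted (μ := μ) (int_exp (hR.meas G) (hR.2 G))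
    have h1 : ∀ g, LZ μ (fun y => ∑ a, h a (Function.update G c g a) y) =
        LZ μ (fun y => ∑ a ∈ univ.erase c, h a (G a) y) +
        LZ (μ.tilted fun y => ∑ a ∈ univ.erase c, h a (G a) y) (h c g) := by
      intro g
      have h2 : (fun y => ∑ a, h a (Function.update G c g a) y) =
          (fun y => ∑ a ∈ univ.erase c, h a (G a) y) + h c g := by
        funext y
        rw [← sum_erase_add univ _ (mem_univ c), Function.update_self, Pi.add_apply]
        congr 1
        exact sum_congr rfl fun a ha => by rw [Function.update_of_ne (ne_of_mem_erase ha)]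
      have h3 := Z_pos (μ := μ) (hb.meas (Function.update G c g)) (hb.2 _)
      unfold LZ
      rw [integral_exp_tilted, log_div, ← h2]
      · ring
      · rw [← h2]; exact h3.ne'
      · exact (Z_pos (hR.meas G) (hR.2 G)).ne'
    simp only [h1]
    rw [integral_add (integrable_const _) ((hh c).int P _)]
    simp [one]
  constructor
  · simpa only [key] using hI.integral_prod_left
  · unfold FE
    rw [← mp_int (mp_update P c) (meas_LZ μ hb.1), integral_prod _ hI]
    simp only [key]

theorem replace [DecidableEq κ] {h0 h1 h2 : κ → Γ → Y → ℝ} (b0 : ∀ a, Bd L (h0 a))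
    (b1 : ∀ a, Bd L (h1 a)) (b2 : ∀ a, Bd L (h2 a)) (c : κ) (e1 : ∀ a, a ≠ c → h1 a = h0 a)
    (e2 : ∀ a, a ≠ c → h2 a = h0 a) {p ε : ℝ}
    (H : ∀ μ' : Measure Y, IsProbabilityMeasure μ' → μ' ≪ μ →
      p * one P μ' (h1 c) + (1 - p) * one P μ' (h2 c) - ε ≤ one P μ' (h0 c)) :
    p * FE P μ h1 + (1 - p) * FE P μ h2 - ε ≤ FE P μ h0 := by
  obtain ⟨i0, f0⟩ := FE_split (P := P) (μ := μ) b0 c
  obtain ⟨i1, f1⟩ := FE_split (P := P) (μ := μ) b1 c
  obtain ⟨i2, f2⟩ := FE_split (P := P) (μ := μ) b2 c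
  have r1 : ∀ G : κ → Γ, (fun y => ∑ a ∈ univ.erase c, h1 a (G a) y) =
      fun y => ∑ a ∈ univ.erase c, h0 a (G a) y := fun G => funext fun y =>
    sum_congr rfl fun a ha => by rw [e1 a (ne_of_mem_erase ha)]
  have r2 : ∀ G : κ → Γ, (fun y => ∑ a ∈ univ.erase c, h2 a (G a) y) =
      fun y => ∑ a ∈ univ.erase c, h0 a (G a) y := fun G => funext fun y =>
    sum_congr rfl fun a ha => by rw [e2 a (ne_of_mem_erase ha)]
  simp only [r1] at i1 f1
  simp only [r2] at i2 f2
  rw [f0, f1, f2]
  refine int_comb i0 i1 i2 fun G => ?_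
  have hR := bd_sum b0 (univ.erase c)
  have := H _ (isProbabilityMeasure_tilted (μ := μ) (int_exp (hR.meas G) (hR.2 G)))
    (tilted_absolutelyContinuous _ _)
  linarith

theorem FE_le {h h' : κ → Γ → Y → ℝ} (b : ∀ a, Bd L (h a)) (b' : ∀ a, Bd L (h' a)) {D : ℝ}
    (H : ∀ (G : κ → Γ) y, ∑ a, h a (G a) y ≤ ∑ a, h' a (G a) y + D) :
    FE P μ h ≤ FE P μ h' + D := by
  have hb := bd_sum b univ
  have hb' := bd_sum b' univ
  have hD : D = ∫ _G : κ → Γ, D ∂(Measure.pi fun _ => P) := by simp
  unfold FE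
  rw [hD, ← integral_add (hb'.int _ μ) (integrable_const _)]
  refine integral_mono (hb.int _ μ) ((hb'.int _ μ).add (integrable_const _)) fun G => ?_
  exact LZ_le (hb.meas G) (hb'.meas G) (hb.2 G) (hb'.2 G) (H G)

theorem abs_FE_le {h : κ → Γ → Y → ℝ} (b : ∀ a, Bd L (h a)) :
    |FE P μ h| ≤ Fintype.card κ * L := by
  have hb := bd_sum b univ
  have := norm_integral_le_of_norm_le_const (μ := Measure.pi fun _ : κ => P)
    (f := fun G : κ → Γ => LZ μ (fun y => ∑ a, h a (G a) y)) (C := Fintype.card κ * L)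
    (Filter.Eventually.of_forall fun G => abs_LZ_le (hb.meas G) (hb.2 G))
  simpa [FE] using this

theorem FE_mask [DecidableEq κ] {φ : Γ → Y → ℝ} (b : Bd L φ) (T : Finset κ) :
    FE P μ (fun a => if a ∈ T then φ else fun _ _ => 0) =
      FE P μ (fun _ : Fin T.card => φ) := by
  have he : Function.Injective fun a : Fin T.card => (T.equivFin.symm a : κ) :=
    Subtype.val_injective.comp T.equivFin.symm.injective
  have hb := bd_sum (κ := Fin T.card) (h := fun _ => φ) (fun _ => b) univ
  unfold FE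
  rw [← mp_int (mp_comp P he) (meas_LZ μ hb.1)]
  refine integral_congr_ae (Filter.Eventually.of_forall fun G => ?_)
  simp only
  congr 1
  funext y
  rw [T.equivFin.symm.sum_comp (fun a : T => φ (G a) y), sum_coe_sort T (fun a => φ (G a) y)]
  have : ∀ a, (if a ∈ T then φ else fun _ _ => 0) (G a) y = if a ∈ T then φ (G a) y else 0 :=
    fun a => by split_ifs <;> rfl
  simp only [this, sum_ite_mem, univ_inter]

theorem FE_pat {P' : Measure Γ'} [IsProbabilityMeasure P'] {r : Γ → Γ'}
    (hr : MeasurePreserving r P P') {h : κ → Γ' → Y → ℝ} (b : ∀ a, Bd L (h a)) :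
    FE P μ (fun a g => h a (r g)) = FE P' μ h := by
  unfold FE
  rw [← mp_int (measurePreserving_pi (fun _ => P) (fun _ => P') fun _ => hr)
    (meas_LZ μ (bd_sum b univ).1)]

theorem FE_base {μ' : Measure Y'} {T : Y' → Y} (hT : MeasurePreserving T μ' μ)
    {h : κ → Γ → Y → ℝ} (b : ∀ a, Bd L (h a)) :
    FE P μ' (fun a g y => h a g (T y)) = FE P μ h := by
  unfold FE LZ
  congr 1
  funext G
  rw [mp_int hT (F := fun y => exp (∑ a, h a (G a) y))
    (measurable_exp.comp ((bd_sum b univ).meas G))]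

theorem FE_dom {μ' : Measure Y} [IsProbabilityMeasure μ'] {C : NNReal} (hC : 0 < C)
    (hμ : μ' ≤ C • μ) {h : κ → Γ → Y → ℝ} (b : ∀ a, Bd L (h a)) :
    FE P μ' h ≤ FE P μ h + log C := by
  have hb := bd_sum b univ
  have hD : log C = ∫ _G : κ → Γ, log C ∂(Measure.pi fun _ => P) := by simp
  unfold FE
  rw [hD, ← integral_add (hb.int _ μ) (integrable_const _)]
  refine integral_mono (hb.int _ μ') ((hb.int _ μ).add (integrable_const _)) fun G => ?_
  have hC' : (0 : ℝ) < C := hC
  simp only [LZ]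
  rw [← log_mul (Z_pos (hb.meas G) (hb.2 G)).ne' hC'.ne']
  refine log_le_log (Z_pos (hb.meas G) (hb.2 G)) ?_
  refine (integral_mono_measure hμ (Filter.Eventually.of_forall fun y => (exp_pos _).le)
    ((int_exp (hb.meas G) (hb.2 G)).smul_measure_nnreal)).trans (le_of_eq ?_)
  rw [integral_smul_nnreal_measure, mul_comm]
  rfl

theorem FE_prod {μ' : Measure Y'} [IsProbabilityMeasure μ'] {h : κ → Γ → Y → ℝ}
    {h' : κ → Γ → Y' → ℝ} (b : ∀ a, Bd L (h a)) (b' : ∀ a, Bd L (h' a)) :
    FE P (μ.prod μ') (fun a g y => h a g y.1 + h' a g y.2) = FE P μ h + FE P μ' h' := by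
  have hb := bd_sum b univ
  have hb' := bd_sum b' univ
  unfold FE
  rw [← integral_add (hb.int _ μ) (hb'.int _ μ')]
  congr 1
  funext G
  simp only [LZ, sum_add_distrib, exp_add]
  rw [integral_prod_mul (fun y => exp (∑ a, h a (G a) y)) (fun y => exp (∑ a, h' a (G a) y)),
    log_mul (Z_pos (hb.meas G) (hb.2 G)).ne' (Z_pos (hb'.meas G) (hb'.2 G)).ne']

end Vale.Agent.P157
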