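import Vale.Agent.P157.Sup

/-! Gaussian cosine moments and the one-pattern inequalities. -/

namespace Vale.Agent.P157

open MeasureTheory ProbabilityTheory Real Finset

variable {ι Ω : Type} [Fintype ι] [MeasurableSpace Ω]

/-- standard Gaussian vector -/
noncomputable def gs (ι : Type) [Fintype ι] : Measure (ι → ℝ) :=
  Measure.pi fun _ => gaussianReal 0 1

instance : IsProbabilityMeasure (gs ι) := by unfold gs; infer_instance

theorem cos_gauss (b : ι → ℝ) :
    ∫ g, cos (∑ i, g i * b i) ∂gs ι = exp (-(∑ i, b i ^ 2) / 2) := by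
  have h1 : ∫ g : ι → ℝ, Complex.exp (((∑ i, g i * b i : ℝ) : ℂ) * Complex.I) ∂gs ι =
      ((exp (-(∑ i, b i ^ 2) / 2) : ℝ) : ℂ) := by
    have e : ∀ g : ι → ℝ, Complex.exp (((∑ i, g i * b i : ℝ) : ℂ) * Complex.I) =
        ∏ i, Complex.exp ((b i : ℂ) * (g i : ℂ) * Complex.I) := by
      intro g
      rw [← Complex.exp_sum]
      congr 1
      push_cast
      rw [sum_mul]
      exact sum_congr rfl fun i _ => by ring
    simp only [e]
    unfold gs
    rw [integral_fintype_prod_eq_prod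
      (fun i (x : ℝ) => Complex.exp ((b i : ℂ) * (x : ℂ) * Complex.I))]
    simp only [← charFun_apply_real, charFun_gaussianReal]
    rw [← Complex.exp_sum, Complex.ofReal_exp]
    congr 1
    push_cast
    rw [neg_div, sum_div, ← sum_neg_distrib]
    exact sum_congr rfl fun i _ => by simp
  have hI : Integrable (fun g : ι → ℝ => Complex.exp (((∑ i, g i * b i : ℝ) : ℂ) * Complex.I))
      (gs ι) :=
    Integrable.of_bound (Measurable.aestronglyMeasurable (by fun_prop)) 1
      (Filter.Eventually.of_forall fun g => by rw [Complex.norm_exp_ofReal_mul_I])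
  have h2 := integral_re hI
  rw [h1] at h2
  simpa only [RCLike.re_to_complex, Complex.exp_ofReal_mul_I_re, Complex.ofReal_re] using h2

/-- cosine transform -/
noncomputable def yy (ϖ : Measure Ω) (v : Ω → ι → ℝ) (g : ι → ℝ) : ℝ :=
  ∫ ω, cos (∑ i, g i * v ω i) ∂ϖ

variable {ϖ : Measure Ω} [IsFiniteMeasure ϖ] {v : Ω → ι → ℝ}

theorem meas_yy (hv : Measurable v) : Measurable (yy ϖ v) :=
  ((show Measurable fun z : (ι → ℝ) × Ω => cos (∑ i, z.1 i * v z.2 i) by
    fun_prop).stronglyMeasurable.integral_prod_right' (ν := ϖ)).measurable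

theorem abs_yy (g : ι → ℝ) : |yy ϖ v g| ≤ ϖ.real Set.univ := by
  have := norm_integral_le_of_norm_le_const (μ := ϖ) (f := fun ω => cos (∑ i, g i * v ω i)) (C := 1)
    (Filter.Eventually.of_forall fun ω => abs_cos_le_one _)
  simpa [yy] using this

/-- mixed moments -/
noncomputable def mom (ϖ : Measure Ω) (v : Ω → ι → ℝ) (n : ℕ) (a : ι → ℝ) : ℝ :=
  ∫ g, yy ϖ v g ^ n * cos (∑ i, g i * a i) ∂gs ι

theorem mom_int (hv : Measurable v) (n : ℕ) {w : Ω → ι → ℝ} (hw : Measurable w) :
    Integrable (fun z : (ι → ℝ) × Ω => yy ϖ v z.1 ^ n * cos (∑ i, z.1 i * w z.2 i))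
      ((gs ι).prod ϖ) := by
  have := meas_yy (ϖ := ϖ) hv
  refine Integrable.of_bound (Measurable.aestronglyMeasurable (by fun_prop))
    (ϖ.real Set.univ ^ n) (Filter.Eventually.of_forall fun z => ?_)
  rw [Real.norm_eq_abs, abs_mul, abs_pow]
  exact (mul_le_of_le_one_right (by positivity) (abs_cos_le_one _)).trans
    (pow_le_pow_left₀ (abs_nonneg _) (abs_yy _) _)

theorem mom_succ (hv : Measurable v) (n : ℕ) (a : ι → ℝ) :
    mom ϖ v (n + 1) a = (∫ ω, mom ϖ v n (fun i => a i + v ω i) ∂ϖ +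
      ∫ ω, mom ϖ v n (fun i => a i - v ω i) ∂ϖ) / 2 := by
  have i1 := mom_int (ϖ := ϖ) hv n (w := fun ω i => a i + v ω i) (by fun_prop)
  have i2 := mom_int (ϖ := ϖ) hv n (w := fun ω i => a i - v ω i) (by fun_prop)
  have i3 : Integrable (fun z : (ι → ℝ) × Ω =>
      yy ϖ v z.1 ^ n * cos (∑ i, z.1 i * (a i + v z.2 i)) +
      yy ϖ v z.1 ^ n * cos (∑ i, z.1 i * (a i - v z.2 i))) ((gs ι).prod ϖ) := i1.add i2
  unfold mom
  rw [← integral_prod_symm _ i1, ← integral_prod_symm _ i2, ← integral_add i1 i2,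
    integral_prod _ i3, ← integral_div]
  congr 1
  funext g
  have e : ∀ ω, yy ϖ v g ^ n * cos (∑ i, g i * (a i + v ω i)) +
      yy ϖ v g ^ n * cos (∑ i, g i * (a i - v ω i)) =
      2 * (yy ϖ v g ^ n * cos (∑ i, g i * a i)) * cos (∑ i, g i * v ω i) := by
    intro ω
    simp only [mul_add, mul_sub, sum_add_distrib, sum_sub_distrib, cos_add, cos_sub]
    ring
  simp only [e]
  rw [integral_const_mul]
  change _ = 2 * _ * yy ϖ v g / 2
  ring

theorem mom_le (hv : Measurable v) {s0 s1 s2 : ι → ℝ} {p : ℝ} (p0 : 0 ≤ p) (p1 : p ≤ 1)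
    (hs : ∀ i, s0 i ^ 2 = p * s1 i ^ 2 + (1 - p) * s2 i ^ 2) (n : ℕ) : ∀ a : ι → ℝ,
    mom ϖ (fun ω i => s0 i * v ω i) n (fun i => s0 i * a i) ≤
      p * mom ϖ (fun ω i => s1 i * v ω i) n (fun i => s1 i * a i) +
      (1 - p) * mom ϖ (fun ω i => s2 i * v ω i) n (fun i => s2 i * a i) := by
  induction n with
  | zero =>
    intro a
    simp only [mom, pow_zero, one_mul, cos_gauss]
    have := convexOn_exp.2 (Set.mem_univ (-(∑ i, (s1 i * a i) ^ 2) / 2))
      (Set.mem_univ (-(∑ i, (s2 i * a i) ^ 2) / 2)) p0 (sub_nonneg.2 p1) (by ring)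
    simp only [smul_eq_mul] at this
    refine le_trans (le_of_eq ?_) this
    congr 1
    have : ∑ i, (s0 i * a i) ^ 2 =
        p * ∑ i, (s1 i * a i) ^ 2 + (1 - p) * ∑ i, (s2 i * a i) ^ 2 := by
      rw [mul_sum, mul_sum, ← sum_add_distrib]
      exact sum_congr rfl fun i _ => by rw [mul_pow, hs]; ring
    rw [this]; ring
  | succ n ih =>
    intro a
    have hm : ∀ s : ι → ℝ, Measurable fun ω i => s i * v ω i := fun s => by fun_prop
    have key : ∀ w : Ω → ι → ℝ, Measurable w →
        ∫ ω, mom ϖ (fun ω i => s0 i * v ω i) n (fun i => s0 i * w ω i) ∂ϖ ≤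
        p * ∫ ω, mom ϖ (fun ω i => s1 i * v ω i) n (fun i => s1 i * w ω i) ∂ϖ +
        (1 - p) * ∫ ω, mom ϖ (fun ω i => s2 i * v ω i) n (fun i => s2 i * w ω i) ∂ϖ := by
      intro w hw
      have I : ∀ s : ι → ℝ,
          Integrable (fun ω => mom ϖ (fun ω i => s i * v ω i) n (fun i => s i * w ω i)) ϖ :=
        fun s => (mom_int (ϖ := ϖ) (hm s) n (w := fun ω i => s i * w ω i)
          (by fun_prop)).integral_prod_right
      rw [← integral_const_mul, ← integral_const_mul,
        ← integral_add ((I s1).const_mul _) ((I s2).const_mul _)]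
      exact integral_mono (I s0) (((I s1).const_mul _).add ((I s2).const_mul _)) fun ω => ih _
    have k1 := key (fun ω i => a i + v ω i) (by fun_prop)
    have k2 := key (fun ω i => a i - v ω i) (by fun_prop)
    rw [mom_succ (hm s0), mom_succ (hm s1), mom_succ (hm s2)]
    simp only [mul_add, mul_sub] at k1 k2 ⊢
    linarith

theorem hasSum_log (hv : Measurable v) (hϖ : ϖ.real Set.univ < 1) :
    HasSum (fun n : ℕ => mom ϖ v (n + 1) (fun _ => 0) / (n + 1))
      (-∫ g, log (1 - yy ϖ v g) ∂gs ι) := by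
  have hm := meas_yy (ϖ := ϖ) hv
  have h0 : 0 ≤ ϖ.real Set.univ := measureReal_nonneg
  have hb : ∀ (n : ℕ) g, ‖yy ϖ v g ^ (n + 1) / (n + 1)‖ ≤ ϖ.real Set.univ ^ n := by
    intro n g
    rw [Real.norm_eq_abs, abs_div, abs_pow, abs_of_pos (by positivity : (0 : ℝ) < n + 1)]
    refine (div_le_self (by positivity) (by simp)).trans ?_
    refine (pow_le_pow_left₀ (abs_nonneg _) (abs_yy g) _).trans ?_
    rw [pow_succ]
    exact mul_le_of_le_one_right (by positivity) hϖ.le
  have hI : ∀ n : ℕ, Integrable (fun g => yy ϖ v g ^ (n + 1) / (n + 1)) (gs ι) := fun n =>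
    Integrable.of_bound (Measurable.aestronglyMeasurable (by fun_prop)) _
      (Filter.Eventually.of_forall (hb n))
  have h := hasSum_integral_of_summable_integral_norm hI
    (Summable.of_nonneg_of_le (fun n => integral_nonneg fun g => norm_nonneg _) (fun n => by
      have := integral_mono (hI n).norm (integrable_const (ϖ.real Set.univ ^ n)) (hb n)
      simpa using this) (summable_geometric_of_lt_one h0 hϖ))
  have e : ∀ g, ∑' n : ℕ, yy ϖ v g ^ (n + 1) / (n + 1) = -log (1 - yy ϖ v g) := fun g =>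
    (hasSum_pow_div_log_of_abs_lt_one ((abs_yy g).trans_lt hϖ)).tsum_eq
  simp only [e, integral_neg, integral_div] at h
  simpa [mom] using h

theorem log_concave (hv : Measurable v) (hϖ : ϖ.real Set.univ < 1) {s0 s1 s2 : ι → ℝ} {p : ℝ}
    (p0 : 0 ≤ p) (p1 : p ≤ 1) (hs : ∀ i, s0 i ^ 2 = p * s1 i ^ 2 + (1 - p) * s2 i ^ 2) :
    p * ∫ g, log (1 - yy ϖ (fun ω i => s1 i * v ω i) g) ∂gs ι +
      (1 - p) * ∫ g, log (1 - yy ϖ (fun ω i => s2 i * v ω i) g) ∂gs ι ≤
      ∫ g, log (1 - yy ϖ (fun ω i => s0 i * v ω i) g) ∂gs ι := by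
  have hm : ∀ s : ι → ℝ, Measurable fun ω i => s i * v ω i := fun s => by fun_prop
  have h := hasSum_le (fun n => ?_) (hasSum_log (hm s0) hϖ)
    (((hasSum_log (hm s1) hϖ).mul_left p).add ((hasSum_log (hm s2) hϖ).mul_left (1 - p)))
  · linarith
  · have := mom_le (ϖ := ϖ) hv p0 p1 hs (n + 1) (fun _ => 0)
    simp only [mul_zero] at this
    rw [← mul_div_assoc, ← mul_div_assoc, ← add_div]
    exact div_le_div_of_nonneg_right this (by positivity)

theorem int_log (hv : Measurable v) (hϖ : ϖ.real Set.univ < 1) :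
    Integrable (fun g => log (1 - yy ϖ v g)) (gs ι) := by
  have hm := meas_yy (ϖ := ϖ) hv
  refine Integrable.of_bound (Measurable.aestronglyMeasurable (by fun_prop))
    (|log (1 - ϖ.real Set.univ)| + 1) (Filter.Eventually.of_forall fun g => ?_)
  have h := abs_le.1 (abs_yy (ϖ := ϖ) (v := v) g)
  have h1 := log_le_log (by linarith : 0 < 1 - ϖ.real Set.univ)
    (by linarith : 1 - ϖ.real Set.univ ≤ 1 - yy ϖ v g)
  have h2 := log_le_sub_one_of_pos (by linarith : 0 < 1 - yy ϖ v g)
  have h3 := neg_abs_le (log (1 - ϖ.real Set.univ))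
  have h4 := abs_nonneg (log (1 - ϖ.real Set.univ))
  exact abs_le.2 ⟨by linarith, by linarith⟩

theorem log_close (hv : Measurable v) {w : Ω → ι → ℝ} (hw : Measurable w)
    (hϖ : ϖ.real Set.univ < 1) {δ : ℝ} (hδ : 0 < δ)
    (h : ∀ᵐ ω ∂ϖ, ∑ i, (v ω i - w ω i) ^ 2 ≤ δ ^ 2) :
    ∫ g, log (1 - yy ϖ w g) ∂gs ι - δ / (1 - ϖ.real Set.univ) ≤ ∫ g, log (1 - yy ϖ v g) ∂gs ι := by
  have h0 : 0 ≤ ϖ.real Set.univ := measureReal_nonneg
  have h1 : 0 < 1 - ϖ.real Set.univ := by linarith
  have iK : Integrable (fun z : (ι → ℝ) × Ω =>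
      (1 - cos (∑ i, z.1 i * (v z.2 i - w z.2 i))) / δ + δ / 2) ((gs ι).prod ϖ) := by
    have := mom_int (ϖ := ϖ) hv 0 (w := fun ω i => v ω i - w ω i) (by fun_prop)
    simp only [pow_zero, one_mul] at this
    exact (((integrable_const _).sub this).div_const _).add (integrable_const _)
  have ic : ∀ u : Ω → ι → ℝ, Measurable u → ∀ g : ι → ℝ,
      Integrable (fun ω => cos (∑ i, g i * u ω i)) ϖ := fun u hu g =>
    Integrable.of_bound (Measurable.aestronglyMeasurable (by fun_prop)) 1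
      (Filter.Eventually.of_forall fun ω => abs_cos_le_one _)
  have pt : ∀ g, log (1 - yy ϖ w g) - log (1 - yy ϖ v g) ≤
      (∫ ω, ((1 - cos (∑ i, g i * (v ω i - w ω i))) / δ + δ / 2) ∂ϖ) / (1 - ϖ.real Set.univ) := by
    intro g
    have a := abs_le.1 (abs_yy (ϖ := ϖ) (v := v) g)
    have b := abs_le.1 (abs_yy (ϖ := ϖ) (v := w) g)
    have iK' : Integrable (fun ω => (1 - cos (∑ i, g i * (v ω i - w ω i))) / δ + δ / 2) ϖ :=
      (((integrable_const _).sub (ic (fun ω i => v ω i - w ω i) (by fun_prop) g)).div_const _).add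
        (integrable_const _)
    have c : yy ϖ v g - yy ϖ w g ≤
        ∫ ω, ((1 - cos (∑ i, g i * (v ω i - w ω i))) / δ + δ / 2) ∂ϖ := by
      unfold yy
      rw [← integral_sub (ic v hv g) (ic w hw g)]
      refine integral_mono ((ic v hv g).sub (ic w hw g)) iK' fun ω => ?_
      simp only [mul_sub, sum_sub_distrib, cos_sub]
      generalize ∑ i, g i * v ω i = A
      generalize ∑ i, g i * w ω i = B
      rw [div_add_div _ _ hδ.ne' two_ne_zero, le_div_iff₀ (by positivity)]
      nlinarith [sin_sq_add_cos_sq A, sin_sq_add_cos_sq B, sq_nonneg (sin A - sin B),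
        sq_nonneg (cos A - cos B - δ)]
    have c0 : 0 ≤ ∫ ω, ((1 - cos (∑ i, g i * (v ω i - w ω i))) / δ + δ / 2) ∂ϖ :=
      integral_nonneg fun ω => add_nonneg (div_nonneg (sub_nonneg.2 (cos_le_one _)) hδ.le)
        (by positivity)
    have hv0 : 0 < 1 - yy ϖ v g := by linarith
    have hw0 : 0 < 1 - yy ϖ w g := by linarith
    rw [← log_div hw0.ne' hv0.ne']
    refine (log_le_sub_one_of_pos (div_pos hw0 hv0)).trans ?_
    rw [div_sub_one hv0.ne']
    refine (div_le_div_of_nonneg_right (by linarith) hv0.le).trans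
      (div_le_div_of_nonneg_left c0 h1 (by linarith))
  have tot := integral_mono (f := fun g => log (1 - yy ϖ w g) - log (1 - yy ϖ v g))
    ((int_log hw hϖ).sub (int_log hv hϖ)) (iK.integral_prod_left.div_const _) pt
  rw [integral_sub (int_log hw hϖ) (int_log hv hϖ), integral_div, ← integral_prod _ iK,
    integral_prod_symm _ iK] at tot
  have fin : ∫ ω, ∫ g, ((1 - cos (∑ i, g i * (v ω i - w ω i))) / δ + δ / 2) ∂gs ι ∂ϖ ≤ δ := by
    have := integral_mono_ae iK.integral_prod_right (integrable_const δ) (by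
      filter_upwards [h] with ω hω
      have ig : Integrable (fun g : ι → ℝ => cos (∑ i, g i * (v ω i - w ω i))) (gs ι) :=
        Integrable.of_bound (Measurable.aestronglyMeasurable (by fun_prop)) 1
          (Filter.Eventually.of_forall fun ω => abs_cos_le_one _)
      rw [integral_add (f := fun g : ι → ℝ => (1 - cos (∑ i, g i * (v ω i - w ω i))) / δ)
        (((integrable_const _).sub ig).div_const _) (integrable_const _),
        integral_div, integral_sub (integrable_const _) ig, cos_gauss]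
      simp only [integral_const, probReal_univ, smul_eq_mul, one_mul]
      have := add_one_le_exp (-(∑ i, (v ω i - w ω i) ^ 2) / 2)
      rw [div_add_div _ _ hδ.ne' two_ne_zero, div_le_iff₀ (by positivity)]
      nlinarith)
    refine this.trans ?_
    simp only [integral_const, smul_eq_mul]
    nlinarith
  have := div_le_div_of_nonneg_right fin h1.le
  linarith

end Vale.Agent.P157
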