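import Mathlib

/-! Gaussian perceptron models: definitions. -/

namespace Vale.Agent.P157

open MeasureTheory ProbabilityTheory
open scoped ENNReal

/-- law of `M` independent standard Gaussian vectors in `ℝ^N` -/
noncomputable def patterns (M N : ℕ) : Measure (Fin M → Fin N → ℝ) :=
  Measure.pi fun _ => Measure.pi fun _ => gaussianReal 0 1

/-- the uniform probability measure on the Ising cube: independent fair signs -/
noncomputable def cube (N : ℕ) : Measure (Fin N → ℝ) :=
  Measure.pi fun _ => (2 : ℝ≥0∞)⁻¹ • (Measure.dirac (1 : ℝ) + Measure.dirac (-1 : ℝ))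

/-- normalized surface measure on the sphere of radius `√N` in `ℝ^N` -/
noncomputable def sph (N : ℕ) : Measure (Fin N → ℝ) :=
  Measure.map (fun θ : Metric.sphere (0 : EuclideanSpace ℝ (Fin N)) 1 => fun i => √N * θ.1 i)
    (((volume : Measure (EuclideanSpace ℝ (Fin N))).toSphere Set.univ)⁻¹ •
      (volume : Measure (EuclideanSpace ℝ (Fin N))).toSphere)

/-- the pressure for the patterns `g` -/
noncomputable def pressure (N M : ℕ) (μ : Measure (Fin N → ℝ)) (f : ℝ → ℝ)
    (g : Fin M → Fin N → ℝ) : ℝ :=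
  (1 / N) * Real.log (∫ x, Real.exp (∑ a, f ((∑ i, g a i * x i) / √N)) ∂μ)

/-- the expected pressure with `⌊α N⌋` patterns -/
noncomputable def meanPressure (μ : ∀ N, Measure (Fin N → ℝ)) (α : ℝ) (f : ℝ → ℝ) (N : ℕ) : ℝ :=
  ∫ g, pressure N ⌊α * N⌋₊ (μ N) f g ∂patterns ⌊α * N⌋₊ N

end Vale.Agent.P157
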