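import Vale.Agent.P157.Defs
import Vale.Agent.P157.Cos

/-! Existence of the limit from a coupling of the configuration spaces. -/

namespace Vale.Agent.P157

open MeasureTheory ProbabilityTheory Real Finset Filter Topology

/-- the log-potentials -/
noncomputable def pot (c : ℝ) (ν : Measure ℝ) (z : ℝ) : ℝ := c + log (1 - ∫ w, cos (w * z) ∂ν)

/-- pattern potential -/
noncomputable def ph {Y : Type} (f : ℝ → ℝ) {N : ℕ} (X : Y → Fin N → ℝ) (g : Fin N → ℝ) (y : Y) :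
    ℝ := f ((∑ i, g i * X y i) / √N)

variable {c : ℝ} {ν : Measure ℝ} [IsFiniteMeasure ν] {Y Y' : Type} [MeasurableSpace Y]
  [MeasurableSpace Y']

theorem abs_u (z : ℝ) : |∫ w, cos (w * z) ∂ν| ≤ ν.real Set.univ := by
  have := norm_integral_le_of_norm_le_const (μ := ν) (f := fun w => cos (w * z)) (C := 1)
    (Filter.Eventually.of_forall fun ω => abs_cos_le_one _)
  simpa using this

theorem meas_pot : Measurable (pot c ν) := by
  have : Measurable fun z : ℝ => ∫ w, cos (w * z) ∂ν :=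
    ((show Measurable fun p : ℝ × ℝ => cos (p.2 * p.1) by
      fun_prop).stronglyMeasurable.integral_prod_right' (ν := ν)).measurable
  unfold pot
  fun_prop

theorem abs_pot (hν : ν.real Set.univ < 1) (z : ℝ) :
    |pot c ν z| ≤ |c| + |log (1 - ν.real Set.univ)| + 1 := by
  have h := abs_le.1 (abs_u (ν := ν) z)
  have h1 := log_le_log (by linarith : 0 < 1 - ν.real Set.univ)
    (by linarith : 1 - ν.real Set.univ ≤ 1 - ∫ w, cos (w * z) ∂ν)
  have h2 := log_le_sub_one_of_pos (by linarith : 0 < 1 - ∫ w, cos (w * z) ∂ν)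
  have h3 := neg_abs_le (log (1 - ν.real Set.univ))
  have h4 := abs_nonneg (log (1 - ν.real Set.univ))
  have h5 := neg_abs_le c
  have h6 := le_abs_self c
  unfold pot
  exact abs_le.2 ⟨by linarith, by linarith⟩

theorem bd_ph {f : ℝ → ℝ} (hf : Measurable f) {L : ℝ} (hL : ∀ z, |f z| ≤ L) {N : ℕ}
    {X : Y → Fin N → ℝ} (hX : Measurable X) : Bd L (ph f X) :=
  ⟨hf.comp (by fun_prop), fun _ _ => hL _⟩

theorem one_pot (hν : ν.real Set.univ < 1) {ι : Type} [Fintype ι] (μ : Measure Y)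
    [IsProbabilityMeasure μ] {X : Y → ι → ℝ} (hX : Measurable X) (s : ι → ℝ) :
    one (gs ι) μ (fun g y => pot c ν (∑ i, g i * (s i * X y i))) =
      c + ∫ g, log (1 - yy (μ.prod ν) (fun z i => s i * (z.2 * X z.1 i)) g) ∂gs ι := by
  have hm : (μ.prod ν).real Set.univ = ν.real Set.univ := by
    rw [← Set.univ_prod_univ, measureReal_prod_prod]; simp
  have key : ∀ g : ι → ℝ, LZ μ (fun y => pot c ν (∑ i, g i * (s i * X y i))) =
      c + log (1 - yy (μ.prod ν) (fun z i => s i * (z.2 * X z.1 i)) g) := by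
    intro g
    have hI : Integrable (fun z : Y × ℝ => cos (∑ i, g i * (s i * (z.2 * X z.1 i)))) (μ.prod ν) :=
      Integrable.of_bound (Measurable.aestronglyMeasurable (by fun_prop)) 1
        (Filter.Eventually.of_forall fun ω => abs_cos_le_one _)
    have e : ∀ y, exp (pot c ν (∑ i, g i * (s i * X y i))) =
        exp c * (1 - ∫ w, cos (∑ i, g i * (s i * (w * X y i))) ∂ν) := by
      intro y
      have h := abs_le.1 (abs_u (ν := ν) (∑ i, g i * (s i * X y i)))
      unfold pot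
      rw [exp_add, exp_log (by linarith)]
      congr 3
      funext w
      rw [mul_sum]
      congr 1
      exact sum_congr rfl fun i _ => by ring
    have h := abs_le.1 (abs_yy (ϖ := μ.prod ν) (v := fun z i => s i * (z.2 * X z.1 i)) g)
    unfold LZ
    simp only [e]
    rw [integral_const_mul, integral_sub (integrable_const _) hI.integral_prod_left,
      ← integral_prod _ hI]
    simp only [integral_const, probReal_univ, smul_eq_mul, one_mul]
    rw [log_mul (exp_pos _).ne', log_exp]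
    · rfl
    · change 1 - yy (μ.prod ν) (fun z i => s i * (z.2 * X z.1 i)) g ≠ 0
      linarith
  unfold one
  simp only [key]
  rw [integral_add (integrable_const _) (int_log (by fun_prop) (by rwa [hm]))]
  simp

theorem meas_app {m n : ℕ} :
    Measurable fun y : (Fin m → ℝ) × (Fin n → ℝ) => (Fin.append y.1 y.2 : Fin (m + n) → ℝ) := by
  refine measurable_pi_lambda _ fun i => ?_
  refine Fin.addCases (fun j => ?_) (fun j => ?_) i
  · simp only [Fin.append_left]; fun_prop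
  · simp only [Fin.append_right]; fun_prop

theorem Bd.comp {Γ Γ' : Type} [MeasurableSpace Γ] [MeasurableSpace Γ'] {L : ℝ} {φ : Γ' → Y → ℝ}
    (h : Bd L φ) {r : Γ → Γ'} (hr : Measurable r) : Bd L fun g => φ (r g) :=
  ⟨h.1.comp ((hr.comp measurable_fst).prodMk measurable_snd), fun _ _ => h.2 _ _⟩

theorem ph_eq0 (f : ℝ → ℝ) {m n : ℕ} (Z : Y → Fin (m + n) → ℝ) :
    ph f Z = fun g y => f (∑ i, g i * ((√((m : ℝ) + n))⁻¹ * Z y i)) := by
  funext g y
  simp only [ph]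
  congr 1
  push_cast
  rw [sum_div]
  exact sum_congr rfl fun i _ => by ring

theorem ph_eq1 (f : ℝ → ℝ) {m n : ℕ} (X : Y → Fin m → ℝ) (X' : Y' → Fin n → ℝ) :
    (fun (g : Fin (m + n) → ℝ) (y : Y × Y') => ph f X (fun i => g (Fin.castAdd n i)) y.1) =
      fun g y => f (∑ i, g i * (Fin.append (fun _ => (√(m : ℝ))⁻¹) (fun _ => (0 : ℝ)) i *
        Fin.append (X y.1) (X' y.2) i)) := by
  funext g y
  simp only [ph, Fin.sum_univ_add, Fin.append_left, Fin.append_right, zero_mul, mul_zero,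
    sum_const_zero, add_zero]
  congr 1
  rw [sum_div]
  exact sum_congr rfl fun i _ => by ring

theorem ph_eq2 (f : ℝ → ℝ) {m n : ℕ} (X : Y → Fin m → ℝ) (X' : Y' → Fin n → ℝ) :
    (fun (g : Fin (m + n) → ℝ) (y : Y × Y') => ph f X' (fun i => g (Fin.natAdd m i)) y.2) =
      fun g y => f (∑ i, g i * (Fin.append (fun _ => (0 : ℝ)) (fun _ => (√(n : ℝ))⁻¹) i *
        Fin.append (X y.1) (X' y.2) i)) := by
  funext g y
  simp only [ph, Fin.sum_univ_add, Fin.append_left, Fin.append_right, zero_mul, mul_zero,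
    sum_const_zero, zero_add]
  congr 1
  rw [sum_div]
  exact sum_congr rfl fun i _ => by ring

theorem one_step (hν : ν.real Set.univ < 1) {R D : ℝ} (hR : ∀ᵐ w ∂ν, |w| ≤ R) (hD : 0 ≤ D)
    {ι : Type} [Fintype ι] (ϖ : Measure Y) [IsProbabilityMeasure ϖ] {A Z : Y → ι → ℝ}
    (hA : Measurable A) (hZ : Measurable Z) (hd : ∀ᵐ y ∂ϖ, ∑ i, (Z y i - A y i) ^ 2 ≤ D ^ 2)
    {t p : ℝ} (ht : 0 < t) {s1 s2 : ι → ℝ} (p0 : 0 ≤ p) (p1 : p ≤ 1)
    (hs : ∀ i, t⁻¹ ^ 2 = p * s1 i ^ 2 + (1 - p) * s2 i ^ 2) :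
    p * one (gs ι) ϖ (fun g y => pot c ν (∑ i, g i * (s1 i * A y i))) +
      (1 - p) * one (gs ι) ϖ (fun g y => pot c ν (∑ i, g i * (s2 i * A y i))) -
      (|R| * D + 1) / t / (1 - ν.real Set.univ) ≤
      one (gs ι) ϖ (fun g y => pot c ν (∑ i, g i * (t⁻¹ * Z y i))) := by
  rw [one_pot hν ϖ hZ (fun _ => t⁻¹), one_pot hν ϖ hA, one_pot hν ϖ hA]
  have hu : (ϖ.prod ν).real Set.univ = ν.real Set.univ := by
    rw [← Set.univ_prod_univ, measureReal_prod_prod]; simp
  have k1 := log_concave (ϖ := ϖ.prod ν) (v := fun z i => z.2 * A z.1 i) (by fun_prop)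
    (by rwa [hu]) (s0 := fun _ => t⁻¹) (s1 := s1) (s2 := s2) p0 p1 hs
  have k2 := log_close (ϖ := ϖ.prod ν) (v := fun z i => t⁻¹ * (z.2 * Z z.1 i))
    (w := fun z i => t⁻¹ * (z.2 * A z.1 i)) (by fun_prop) (by fun_prop) (by rwa [hu])
    (δ := (|R| * D + 1) / t) (by positivity) (by
      filter_upwards [Measure.quasiMeasurePreserving_fst.ae hd,
        Measure.quasiMeasurePreserving_snd.ae hR] with z h1 h2
      have e : ∑ i, (t⁻¹ * (z.2 * Z z.1 i) - t⁻¹ * (z.2 * A z.1 i)) ^ 2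
          = t⁻¹ ^ 2 * (z.2 ^ 2 * ∑ i, (Z z.1 i - A z.1 i) ^ 2) := by
        rw [mul_sum, mul_sum]
        exact sum_congr rfl fun i _ => by ring
      rw [e, div_eq_inv_mul, mul_pow]
      refine mul_le_mul_of_nonneg_left ?_ (by positivity)
      have h3 : z.2 ^ 2 ≤ |R| ^ 2 := by
        rw [← sq_abs]; exact pow_le_pow_left₀ (abs_nonneg _) (h2.trans (le_abs_self _)) 2
      have h4 := mul_le_mul h3 h1 (sum_nonneg fun i _ => sq_nonneg _) (by positivity)
      have h5 : 0 ≤ |R| * D := by positivity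
      nlinarith)
  rw [hu] at k2
  linarith

theorem step (hν : ν.real Set.univ < 1) {R D : ℝ} (hR : ∀ᵐ w ∂ν, |w| ≤ R) (hD : 0 ≤ D)
    {m n : ℕ} (hm : 1 ≤ m) (hn : 1 ≤ n) {μ : Measure Y} [IsProbabilityMeasure μ]
    {μ' : Measure Y'} [IsProbabilityMeasure μ'] {X : Y → Fin m → ℝ} {X' : Y' → Fin n → ℝ}
    {Z : Y × Y' → Fin (m + n) → ℝ} (hX : Measurable X) (hX' : Measurable X') (hZ : Measurable Z)
    (hd : ∀ᵐ y ∂μ.prod μ', ∑ i, (Z y i - Fin.append (X y.1) (X' y.2) i) ^ 2 ≤ D ^ 2)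
    (M a b : ℕ) :
    AA (gs (Fin m)) μ (ph (pot c ν) X) a + AA (gs (Fin n)) μ' (ph (pot c ν) X') b -
      M * |(|R| * D + 1) / √((m : ℝ) + n) / (1 - ν.real Set.univ)| -
      (|c| + |log (1 - ν.real Set.univ)| + 1) * (2 * √(((m : ℝ) / (m + n) * M - a) ^ 2 +
        M * ((m : ℝ) / (m + n) * (1 - (m : ℝ) / (m + n)))) + |(M : ℝ) - a - b|) ≤
      AA (gs (Fin (m + n))) (μ.prod μ') (ph (pot c ν) Z) M := by
  have hm0 : (0 : ℝ) < m := by exact_mod_cast hm
  have hn0 : (0 : ℝ) < n := by exact_mod_cast hn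
  have b1 := bd_ph (meas_pot (c := c)) (abs_pot hν) hX
  have b2 := bd_ph (meas_pot (c := c)) (abs_pot hν) hX'
  have r1 : MeasurePreserving (fun (g : Fin (m + n) → ℝ) i => g (Fin.castAdd n i))
      (gs (Fin (m + n))) (gs (Fin m)) := mp_comp _ (Fin.castAdd_injective m n)
  have r2 : MeasurePreserving (fun (g : Fin (m + n) → ℝ) i => g (Fin.natAdd m i))
      (gs (Fin (m + n))) (gs (Fin n)) := mp_comp _ (Fin.natAdd_injective n m)
  rw [show AA (gs (Fin m)) μ (ph (pot c ν) X) a = AA (gs (Fin (m + n))) μ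
      (fun g => ph (pot c ν) X fun i => g (Fin.castAdd n i)) a from
    (FE_pat r1 (h := fun _ => ph (pot c ν) X) fun _ => b1).symm,
    show AA (gs (Fin n)) μ' (ph (pot c ν) X') b = AA (gs (Fin (m + n))) μ'
      (fun g => ph (pot c ν) X' fun i => g (Fin.natAdd m i)) b from
    (FE_pat r2 (h := fun _ => ph (pot c ν) X') fun _ => b2).symm]
  have c1 : Bd (|c| + |log (1 - ν.real Set.univ)| + 1)
      (fun (g : Fin (m + n) → ℝ) => ph (pot c ν) X fun i => g (Fin.castAdd n i)) :=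
    b1.comp r1.measurable
  have c2 : Bd (|c| + |log (1 - ν.real Set.univ)| + 1)
      (fun (g : Fin (m + n) → ℝ) => ph (pot c ν) X' fun i => g (Fin.natAdd m i)) :=
    b2.comp r2.measurable
  have p0 : 0 ≤ (m : ℝ) / (m + n) := by positivity
  have p1 : (m : ℝ) / (m + n) ≤ 1 := div_le_one_of_le₀ (by linarith) (by positivity)
  refine superadd (by positivity) (bd_ph meas_pot (abs_pot hν) hZ) c1 c2 p0 p1
    (fun ϖ hϖ hac => ?_) M a b
  have hA : Measurable fun y : Y × Y' => (Fin.append (X y.1) (X' y.2) : Fin (m + n) → ℝ) :=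
    meas_app.comp ((hX.comp measurable_fst).prodMk (hX'.comp measurable_snd))
  rw [ph_eq0, ph_eq1 _ X X', ph_eq2 _ X X']
  refine one_step hν hR hD ϖ hA hZ (hac.ae_le hd) (sqrt_pos.2 (add_pos hm0 hn0)) p0 p1 fun i => ?_
  refine Fin.addCases (fun j => ?_) (fun j => ?_) i
  · simp only [Fin.append_left, inv_pow, sq_sqrt hm0.le, sq_sqrt (add_pos hm0 hn0).le]
    field_simp
    ring
  · simp only [Fin.append_right, inv_pow, sq_sqrt hn0.le, sq_sqrt (add_pos hm0 hn0).le]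
    field_simp
    ring

/-- a coupling between consecutive configuration spaces -/
structure Cpl (μ : ∀ N, Measure (Fin N → ℝ)) where
  n0 : ℕ
  D : ℝ
  hD : 0 ≤ D
  γ : ∀ N, Measure (Fin N → ℝ)
  ρ : ∀ N, Measure (Fin N → ℝ)
  T : ∀ N, (Fin N → ℝ) → Fin N → ℝ
  pμ : ∀ N, 1 ≤ N → IsProbabilityMeasure (μ N)
  pγ : ∀ N, IsProbabilityMeasure (γ N)
  pρ : ∀ N, n0 ≤ N → IsProbabilityMeasure (ρ N)
  hγ : ∀ N, n0 ≤ N → MeasurePreserving (T N) (γ N) (μ N)
  hρ : ∀ N, n0 ≤ N → MeasurePreserving (T N) (ρ N) (μ N)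
  dom : ∀ N, n0 ≤ N → ρ N ≤ (2 : NNReal) • γ N
  app : ∀ m n, MeasurePreserving (fun y : (Fin m → ℝ) × (Fin n → ℝ) => Fin.append y.1 y.2)
    ((γ m).prod (γ n)) (γ (m + n))
  near : ∀ m n, n0 ≤ m → n0 ≤ n → ∀ᵐ y ∂(ρ m).prod (ρ n),
    ∑ i, (T (m + n) (Fin.append y.1 y.2) i - Fin.append (T m y.1) (T n y.2) i) ^ 2 ≤ D ^ 2

theorem mean_eq (μ : ∀ N, Measure (Fin N → ℝ)) (α : ℝ) (f : ℝ → ℝ) (N : ℕ) :
    meanPressure μ α f N = AA (gs (Fin N)) (μ N) (ph f id) ⌊α * N⌋₊ / N := by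
  unfold meanPressure pressure
  rw [integral_const_mul, mul_comm, mul_one_div]
  rfl

theorem lim_trunc {μ : ∀ N, Measure (Fin N → ℝ)} (C : Cpl μ) (hν : ν.real Set.univ < 1) {R : ℝ}
    (hR : ∀ᵐ w ∂ν, |w| ≤ R) {α : ℝ} (hα : 0 < α) :
    ∃ l, Tendsto (meanPressure μ α (pot c ν)) atTop (𝓝 l) := by
  obtain ⟨L, hL⟩ : ∃ L, L = |c| + |log (1 - ν.real Set.univ)| + 1 := ⟨_, rfl⟩
  obtain ⟨E, hE⟩ : ∃ E, E = (|R| * C.D + 1) / (1 - ν.real Set.univ) := ⟨_, rfl⟩
  have hL0 : 0 ≤ L := by rw [hL]; positivity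
  have hθ : 0 < 1 - ν.real Set.univ := by linarith
  have hE0 : 0 ≤ E := by have := C.hD; rw [hE]; positivity
  have hb : ∀ z, |pot c ν z| ≤ L := fun z => hL ▸ abs_pot hν z
  have h := lim_of_near (a := fun N => AA (gs (Fin N)) (μ N) (ph (pot c ν) id) ⌊α * N⌋₊)
    (B := α * L) (K := α * E + L * (2 * √(1 + α) + 2) + log 4) (n0 := max C.n0 1)
    (by have := log_nonneg (by norm_num : (1 : ℝ) ≤ 4); positivity)
    (fun n hn => by
      haveI := C.pμ n hn
      refine (abs_FE_le fun _ => bd_ph meas_pot hb measurable_id).trans ?_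
      rw [Fintype.card_fin, mul_right_comm]
      exact mul_le_mul_of_nonneg_right (Nat.floor_le (by positivity)) hL0)
    (fun m n hm hn => ?_)
  · simpa only [← mean_eq] using h
  have m0 := (le_max_left _ _).trans hm
  have n0 := (le_max_left _ _).trans hn
  have m1 := (le_max_right _ _).trans hm
  have n1 := (le_max_right _ _).trans hn
  haveI := C.pμ m m1
  haveI := C.pμ n n1
  haveI := C.pμ (m + n) (by omega)
  haveI := C.pρ m m0
  haveI := C.pρ n n0
  haveI := C.pγ m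
  haveI := C.pγ n
  have hT := (C.hγ (m + n) (by omega)).comp (C.app m n)
  have s := step (c := c) hν hR C.hD m1 n1 (C.hρ m m0).measurable (C.hρ n n0).measurable
    hT.measurable (C.near m n m0 n0) ⌊α * (m + n : ℕ)⌋₊ ⌊α * m⌋₊ ⌊α * n⌋₊
  have a1 : ∀ k, AA (gs (Fin m)) (C.ρ m) (ph (pot c ν) (C.T m)) k =
      AA (gs (Fin m)) (μ m) (ph (pot c ν) id) k := fun k =>
    FE_base (C.hρ m m0) (h := fun _ => ph (pot c ν) id) fun _ => bd_ph meas_pot hb measurable_id
  have a2 : ∀ k, AA (gs (Fin n)) (C.ρ n) (ph (pot c ν) (C.T n)) k =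
      AA (gs (Fin n)) (μ n) (ph (pot c ν) id) k := fun k =>
    FE_base (C.hρ n n0) (h := fun _ => ph (pot c ν) id) fun _ => bd_ph meas_pot hb measurable_id
  have a3 : ∀ k, AA (gs (Fin (m + n))) ((C.γ m).prod (C.γ n))
      (ph (pot c ν) (C.T (m + n) ∘ fun y => Fin.append y.1 y.2)) k =
      AA (gs (Fin (m + n))) (μ (m + n)) (ph (pot c ν) id) k := fun k =>
    FE_base hT (h := fun _ => ph (pot c ν) id) fun _ => bd_ph meas_pot hb measurable_id
  have hdom : (C.ρ m).prod (C.ρ n) ≤ (4 : NNReal) • (C.γ m).prod (C.γ n) := by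
    refine (Measure.prod_mono (C.dom m m0) (C.dom n n0)).trans (le_of_eq ?_)
    rw [Measure.prod_smul_left, Measure.prod_smul_right, smul_smul]
    norm_num
  have a4 := FE_dom (P := gs (Fin (m + n))) (by norm_num) hdom
    (h := fun _ : Fin ⌊α * (m + n : ℕ)⌋₊ =>
      ph (pot c ν) (C.T (m + n) ∘ fun y => Fin.append y.1 y.2))
    fun _ => bd_ph meas_pot hb hT.measurable
  change AA _ _ _ _ ≤ AA _ _ _ _ + _ at a4
  rw [a3] at a4
  rw [a1, a2, ← hL] at s
  have hm0 : (1 : ℝ) ≤ m := by exact_mod_cast m1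
  have hn0 : (1 : ℝ) ≤ n := by exact_mod_cast n1
  obtain ⟨N, hN⟩ : ∃ N : ℝ, N = m + n := ⟨_, rfl⟩
  have hN1 : 1 ≤ N := by linarith
  have hs1 : 1 ≤ √N := one_le_sqrt.2 hN1
  have hsq : √N * √N = N := mul_self_sqrt (by linarith)
  have cast : ((m + n : ℕ) : ℝ) = N := by rw [hN]; push_cast; rfl
  rw [cast] at s a4 ⊢
  rw [← hN] at s ⊢
  have M1 : (⌊α * N⌋₊ : ℝ) ≤ α * N := Nat.floor_le (by positivity)
  have M2 := Nat.lt_floor_add_one (α * N)
  have A1 : (⌊α * m⌋₊ : ℝ) ≤ α * m := Nat.floor_le (by positivity)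
  have A2 := Nat.lt_floor_add_one (α * m)
  have B1 : (⌊α * n⌋₊ : ℝ) ≤ α * n := Nat.floor_le (by positivity)
  have B2 := Nat.lt_floor_add_one (α * n)
  have hαN : α * N = α * m + α * n := by rw [hN]; ring
  have t1 : |(⌊α * N⌋₊ : ℝ) - ⌊α * m⌋₊ - ⌊α * n⌋₊| ≤ 2 * √N :=
    abs_le.2 ⟨by linarith, by linarith⟩
  have p0 : 0 ≤ (m : ℝ) / N := by positivity
  have p1 : (m : ℝ) / N ≤ 1 := div_le_one_of_le₀ (by linarith) (by linarith)
  have pN : (m : ℝ) / N * (α * N) = α * m := by field_simp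
  have t2 : √(((m : ℝ) / N * ⌊α * N⌋₊ - ⌊α * m⌋₊) ^ 2 +
      ⌊α * N⌋₊ * ((m : ℝ) / N * (1 - (m : ℝ) / N))) ≤ √(1 + α) * √N := by
    rw [← sqrt_mul (by positivity)]
    refine sqrt_le_sqrt ?_
    have u1 : ((m : ℝ) / N * ⌊α * N⌋₊ - ⌊α * m⌋₊) ^ 2 ≤ 1 := by
      rw [sq_le_one_iff_abs_le_one]
      have := mul_le_mul_of_nonneg_left M1 p0
      have := mul_le_mul_of_nonneg_left M2.le p0
      exact abs_le.2 ⟨by nlinarith, by linarith⟩
    have u2 : (m : ℝ) / N * (1 - (m : ℝ) / N) ≤ 1 := by nlinarith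
    have u3 := mul_le_mul M1 u2 (mul_nonneg p0 (by linarith)) (by positivity)
    nlinarith
  have t3 : (⌊α * N⌋₊ : ℝ) * |(|R| * C.D + 1) / √N / (1 - ν.real Set.univ)| ≤ α * E * √N := by
    have e : (|R| * C.D + 1) / √N / (1 - ν.real Set.univ) = E / √N := by rw [hE]; field_simp
    rw [e, abs_of_nonneg (by positivity)]
    refine (mul_le_mul_of_nonneg_right M1 (by positivity)).trans (le_of_eq ?_)
    field_simp
    rw [sq_sqrt (by linarith), mul_comm]
  have t4 : log 4 ≤ log 4 * √N :=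
    le_mul_of_one_le_right (log_nonneg (by norm_num : (1 : ℝ) ≤ 4)) hs1
  have t5 := mul_le_mul_of_nonneg_left (add_le_add (mul_le_mul_of_nonneg_left t2 zero_le_two) t1) hL0
  have t6 : log ((4 : NNReal) : ℝ) = log 4 := by norm_num
  rw [t6] at a4
  linarith

theorem lim_all {μ : ∀ N, Measure (Fin N → ℝ)} (C : Cpl μ) (hν : ν.real Set.univ < 1)
    {α : ℝ} (hα : 0 < α) : ∃ l, Tendsto (meanPressure μ α (pot c ν)) atTop (𝓝 l) := by
  have hθ : 0 < 1 - ν.real Set.univ := by linarith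
  have shift : ∀ u : ℕ → ℝ, (∃ l, Tendsto u atTop (𝓝 l)) ↔
      ∃ l, Tendsto (fun n => u (n + 1)) atTop (𝓝 l) := fun u => by
    simp only [tendsto_add_atTop_iff_nat]
  rw [shift]
  refine lim_of_approx fun ε hε => ?_
  have t := tendsto_measure_iInter_atTop (μ := ν) (s := fun k : ℕ => (Set.Icc (-k : ℝ) k)ᶜ)
    (fun k => measurableSet_Icc.compl.nullMeasurableSet)
    (fun a b hab => Set.compl_subset_compl.2
      (Set.Icc_subset_Icc (by simpa using hab) (by simpa using hab))) ⟨0, measure_ne_top _ _⟩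
  have e : (⋂ k : ℕ, (Set.Icc (-k : ℝ) k)ᶜ) = ∅ := by
    refine Set.eq_empty_of_forall_notMem fun x hx => ?_
    obtain ⟨k, hk⟩ := exists_nat_ge |x|
    exact Set.mem_iInter.1 hx k (abs_le.1 hk)
  rw [e, measure_empty] at t
  have t' := (ENNReal.tendsto_toReal ENNReal.zero_ne_top).comp t
  obtain ⟨k, hk⟩ := (t'.eventually (gt_mem_nhds (show (0 : ENNReal).toReal <
    ε / α * (1 - ν.real Set.univ) by simp only [ENNReal.toReal_zero]; positivity))).exists
  change ν.real _ < _ at hk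
  have hν' : (ν.restrict (Set.Icc (-k : ℝ) k)).real Set.univ ≤ ν.real Set.univ := by
    rw [measureReal_restrict_apply_univ]
    exact measureReal_mono (Set.subset_univ _)
  refine ⟨fun n => meanPressure μ α (pot c (ν.restrict (Set.Icc (-k : ℝ) k))) (n + 1),
    (shift _).1 (lim_trunc C (hν'.trans_lt hν) (R := k) ?_ hα), fun n => ?_⟩
  · filter_upwards [ae_restrict_mem measurableSet_Icc] with w hw using abs_le.2 hw
  have close : ∀ z, |pot c ν z - pot c (ν.restrict (Set.Icc (-k : ℝ) k)) z| ≤ ε / α := by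
    intro z
    have hI : Integrable (fun w => cos (w * z)) ν :=
      Integrable.of_bound (Measurable.aestronglyMeasurable (by fun_prop)) 1
        (Filter.Eventually.of_forall fun ω => abs_cos_le_one _)
    have h1 := integral_add_compl (s := Set.Icc (-k : ℝ) k) measurableSet_Icc hI
    have h2 := abs_le.1 (abs_u (ν := ν.restrict (Set.Icc (-k : ℝ) k)ᶜ) z)
    rw [measureReal_restrict_apply_univ] at h2
    have h3 := abs_le.1 (abs_u (ν := ν) z)
    have h4 := abs_le.1 (abs_u (ν := ν.restrict (Set.Icc (-k : ℝ) k)) z)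
    have key : ∀ x y : ℝ, 1 - ν.real Set.univ ≤ x → 1 - ν.real Set.univ ≤ y →
        x - y ≤ ε / α * (1 - ν.real Set.univ) → log x - log y ≤ ε / α := by
      intro x y hx hy hxy
      have hy0 : 0 < y := by linarith
      rw [← log_div (by linarith) hy0.ne']
      refine (log_le_sub_one_of_pos (div_pos (by linarith) hy0)).trans ?_
      rw [div_sub_one hy0.ne', div_le_iff₀ hy0]
      exact hxy.trans (mul_le_mul_of_nonneg_left hy (by positivity))
    have k1 := key (1 - ∫ w, cos (w * z) ∂ν) (1 - ∫ w in Set.Icc (-k : ℝ) k, cos (w * z) ∂ν)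
      (by linarith) (by linarith) (by linarith)
    have k2 := key (1 - ∫ w in Set.Icc (-k : ℝ) k, cos (w * z) ∂ν) (1 - ∫ w, cos (w * z) ∂ν)
      (by linarith) (by linarith) (by linarith)
    unfold pot
    exact abs_le.2 ⟨by linarith, by linarith⟩
  haveI := C.pμ (n + 1) (by omega)
  obtain ⟨L, hL1, hL2⟩ : ∃ L, (∀ z, |pot c ν z| ≤ L) ∧
      ∀ z, |pot c (ν.restrict (Set.Icc (-k : ℝ) k)) z| ≤ L :=
    ⟨max _ _, fun z => (abs_pot hν z).trans (le_max_left _ _),
      fun z => (abs_pot (hν'.trans_lt hν) z).trans (le_max_right _ _)⟩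
  have gen : ∀ f f' : ℝ → ℝ, Measurable f → Measurable f' → (∀ z, |f z| ≤ L) → (∀ z, |f' z| ≤ L) →
      (∀ z, f z ≤ f' z + ε / α) →
      meanPressure μ α f (n + 1) ≤ meanPressure μ α f' (n + 1) + ε := by
    intro f f' m1 m2 b1 b2 h
    have hN : (0 : ℝ) < (n + 1 : ℕ) := by positivity
    have := FE_le (P := gs (Fin (n + 1))) (μ := μ (n + 1))
      (h := fun _ : Fin ⌊α * (n + 1 : ℕ)⌋₊ => ph f id) (h' := fun _ => ph f' id)
      (fun _ => bd_ph m1 b1 measurable_id) (fun _ => bd_ph m2 b2 measurable_id)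
      (D := ε * (n + 1 : ℕ)) fun G y => by
        have h1 : ∑ a, ph f id (G a) y ≤ ∑ a, (ph f' id (G a) y + ε / α) :=
          sum_le_sum fun a _ => h _
        rw [sum_add_distrib, sum_const, card_univ, Fintype.card_fin, nsmul_eq_mul] at h1
        have h2 : (⌊α * (n + 1 : ℕ)⌋₊ : ℝ) * (ε / α) ≤ α * (n + 1 : ℕ) * (ε / α) :=
          mul_le_mul_of_nonneg_right (Nat.floor_le (by positivity)) (by positivity)
        have h3 : α * (n + 1 : ℕ) * (ε / α) = ε * (n + 1 : ℕ) := by field_simp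
        linarith
    rw [mean_eq, mean_eq, div_add' _ _ _ hN.ne']
    exact div_le_div_of_nonneg_right this hN.le
  have g1 := gen _ _ meas_pot meas_pot hL1 hL2 fun z => by linarith [(abs_le.1 (close z)).2]
  have g2 := gen _ _ meas_pot meas_pot hL2 hL1 fun z => by linarith [(abs_le.1 (close z)).1]
  exact abs_le.2 ⟨by linarith, by linarith⟩

end Vale.Agent.P157
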