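import Vale.Agent.P157.Main

/-! The couplings for the cube and for the sphere. -/

namespace Vale.Agent.P157

open MeasureTheory ProbabilityTheory Real Finset Filter Topology
open scoped ENNReal

theorem mp_app (ρ : Measure ℝ) [IsProbabilityMeasure ρ] (m n : ℕ) :
    MeasurePreserving (fun y : (Fin m → ℝ) × (Fin n → ℝ) => Fin.append y.1 y.2)
      ((Measure.pi fun _ => ρ).prod (Measure.pi fun _ => ρ)) (Measure.pi fun _ => ρ) := by
  refine ⟨meas_app, (Measure.pi_eq fun s hs => ?_).symm⟩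
  rw [Measure.map_apply meas_app (MeasurableSet.univ_pi hs)]
  have : (fun y : (Fin m → ℝ) × (Fin n → ℝ) => Fin.append y.1 y.2) ⁻¹' Set.univ.pi s =
      (Set.univ.pi fun i => s (Fin.castAdd n i)) ×ˢ Set.univ.pi fun i => s (Fin.natAdd m i) := by
    ext y
    simp only [Set.mem_preimage, Set.mem_pi, Set.mem_univ, true_imp_iff, Set.mem_prod,
      Fin.forall_fin_add, Fin.append_left, Fin.append_right]
  rw [this, Measure.prod_prod, Measure.pi_pi, Measure.pi_pi, Fin.prod_univ_add]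

/-- coupling for product measures -/
noncomputable def cplPi (ρ : Measure ℝ) [IsProbabilityMeasure ρ] :
    Cpl fun N => Measure.pi fun _ : Fin N => ρ where
  n0 := 0
  D := 0
  hD := le_rfl
  γ N := Measure.pi fun _ : Fin N => ρ
  ρ N := Measure.pi fun _ : Fin N => ρ
  T _ := id
  pμ _ _ := inferInstance
  pγ _ := inferInstance
  pρ _ _ := inferInstance
  hγ _ _ := MeasurePreserving.id _
  hρ _ _ := MeasurePreserving.id _
  dom _ _ := by rw [two_smul]; exact Measure.le_add_right le_rfl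
  app := mp_app ρ
  near _ _ _ _ := Eventually.of_forall fun y => by simp

instance : IsProbabilityMeasure
    ((2 : ℝ≥0∞)⁻¹ • (Measure.dirac (1 : ℝ) + Measure.dirac (-1 : ℝ))) :=
  ⟨by simp [one_add_one_eq_two, ENNReal.inv_two_add_inv_two]⟩

/-- radial projection -/
noncomputable def proj (N : ℕ) (y : Fin N → ℝ) : Fin N → ℝ :=
  fun i => √N * ((√(∑ j, y j ^ 2))⁻¹ * y i)

theorem meas_proj (N : ℕ) : Measurable (proj N) := by unfold proj; fun_prop

theorem radial {N : ℕ} (hN : 1 ≤ N) {ψ : ℝ → ℝ≥0∞} (hψ : Measurable ψ)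
    (hp : IsProbabilityMeasure
      ((volume : Measure (Fin N → ℝ)).withDensity fun y => ψ √(∑ j, y j ^ 2))) :
    MeasurePreserving (proj N)
      ((volume : Measure (Fin N → ℝ)).withDensity fun y => ψ √(∑ j, y j ^ 2)) (sph N) := by
  haveI : Nonempty (Fin N) := ⟨⟨0, hN⟩⟩
  have hS : Measurable fun (θ : Metric.sphere (0 : EuclideanSpace ℝ (Fin N)) 1) (i : Fin N) =>
      √N * θ.1 i := by fun_prop
  have hm : Measurable fun y : Fin N → ℝ => ψ √(∑ j, y j ^ 2) := hψ.comp (by fun_prop)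
  have key : ∀ A : Set (Fin N → ℝ), MeasurableSet A →
      ((volume : Measure (Fin N → ℝ)).withDensity fun y => ψ √(∑ j, y j ^ 2)) (proj N ⁻¹' A) =
      (volume : Measure (EuclideanSpace ℝ (Fin N))).toSphere
        ((fun θ i => √N * θ.1 i) ⁻¹' A) *
        ∫⁻ r : Set.Ioi (0 : ℝ), ψ r ∂Measure.volumeIoiPow
          (Module.finrank ℝ (EuclideanSpace ℝ (Fin N)) - 1) := by
    intro A hA
    have hA' := meas_proj N hA
    have hF : Measurable fun y : Fin N → ℝ =>
        (proj N ⁻¹' A).indicator (fun y => ψ √(∑ j, y j ^ 2)) y := hm.indicator hA'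
    have hG : Measurable fun z : Metric.sphere (0 : EuclideanSpace ℝ (Fin N)) 1 × Set.Ioi (0 : ℝ) =>
        ((fun θ i => √N * θ.1 i) ⁻¹' A).indicator 1 z.1 * ψ z.2 :=
      ((measurable_one.indicator (hS hA)).comp measurable_fst).mul
        (hψ.comp (measurable_subtype_coe.comp measurable_snd))
    rw [← lintegral_indicator_one (hS hA),
      ← lintegral_prod_mul (measurable_one.indicator (hS hA)).aemeasurable
        (g := fun r : Set.Ioi (0 : ℝ) => ψ r) (hψ.comp measurable_subtype_coe).aemeasurable,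
      ← (Measure.measurePreserving_homeomorphUnitSphereProd
        (volume : Measure (EuclideanSpace ℝ (Fin N)))).lintegral_comp hG,
      withDensity_apply _ hA', ← lintegral_indicator hA',
      ← (PiLp.volume_preserving_ofLp (Fin N)).lintegral_comp hF]
    conv_lhs => rw [← restrict_compl_singleton (μ := (volume : Measure (EuclideanSpace ℝ (Fin N)))) 0,
      ← lintegral_subtype_comap (measurableSet_singleton _).compl]
    refine lintegral_congr fun x => ?_
    have hn : √(∑ j, x.1.ofLp j ^ 2) = ‖x.1‖ := by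
      rw [EuclideanSpace.norm_eq]; simp
    have e : proj N x.1.ofLp = fun i => √N *
        ((homeomorphUnitSphereProd (EuclideanSpace ℝ (Fin N)) x).1.1 i) := by
      funext i
      simp [proj, hn]
    by_cases hx : proj N x.1.ofLp ∈ A
    · rw [Set.indicator_of_mem (show x.1.ofLp ∈ proj N ⁻¹' A from hx),
        Set.indicator_of_mem (by rwa [Set.mem_preimage, ← e]), hn]
      simp
    · rw [Set.indicator_of_notMem (show x.1.ofLp ∉ proj N ⁻¹' A from hx),
        Set.indicator_of_notMem (by rwa [Set.mem_preimage, ← e]), zero_mul]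
  refine ⟨meas_proj N, Measure.ext fun A hA => ?_⟩
  have h1 := key Set.univ MeasurableSet.univ
  rw [Set.preimage_univ, Set.preimage_univ, measure_univ] at h1
  rw [Measure.map_apply (meas_proj N) hA, key A hA, sph, Measure.map_apply hS hA,
    Measure.smul_apply, smul_eq_mul, mul_comm, ← ENNReal.eq_inv_of_mul_eq_one_left
      (by rw [mul_comm]; exact h1.symm)]

theorem gs_eq (N : ℕ) : gs (Fin N) = (volume : Measure (Fin N → ℝ)).withDensity fun y =>
    ENNReal.ofReal ((√(2 * π))⁻¹ ^ N * exp (-√(∑ j, y j ^ 2) ^ 2 / 2)) := by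
  have hg : Integrable (gaussianPDFReal 0 1) := integrable_gaussianPDFReal 0 1
  have hg0 : ∀ x, 0 ≤ gaussianPDFReal 0 1 x := gaussianPDFReal_nonneg 0 1
  refine Measure.pi_eq fun s hs => ?_
  have hI : ∀ i, Integrable ((s i).indicator (gaussianPDFReal 0 1)) := fun i => hg.indicator (hs i)
  have h0 : ∀ i x, 0 ≤ (s i).indicator (gaussianPDFReal 0 1) x := fun i x =>
    Set.indicator_nonneg (fun y _ => hg0 y) x
  rw [withDensity_apply _ (MeasurableSet.univ_pi hs),
    ← lintegral_indicator (MeasurableSet.univ_pi hs)]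
  have h1 : (Set.univ.pi s).indicator (fun y : Fin N → ℝ =>
      ENNReal.ofReal ((√(2 * π))⁻¹ ^ N * exp (-√(∑ j, y j ^ 2) ^ 2 / 2))) =
      fun x => ENNReal.ofReal (∏ i, (s i).indicator (gaussianPDFReal 0 1) (x i)) := by
    funext x
    by_cases hx : x ∈ Set.univ.pi s
    · rw [Set.indicator_of_mem hx]
      congr 1
      rw [prod_congr rfl fun i _ => Set.indicator_of_mem (hx i trivial) _,
        sq_sqrt (sum_nonneg fun i _ => sq_nonneg _)]
      simp only [gaussianPDFReal, prod_mul_distrib, prod_const, card_univ, Fintype.card_fin,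
        ← exp_sum, NNReal.coe_one, mul_one, sub_zero]
      rw [← sum_div, sum_neg_distrib]
    · rw [Set.indicator_of_notMem hx]
      simp only [Set.mem_pi, Set.mem_univ, true_imp_iff, not_forall] at hx
      obtain ⟨i, hi⟩ := hx
      rw [prod_eq_zero (mem_univ i) (Set.indicator_of_notMem hi _), ENNReal.ofReal_zero]
  rw [h1, volume_pi, ← ofReal_integral_eq_lintegral_ofReal (Integrable.fintype_prod hI)
    (ae_of_all _ fun x => prod_nonneg fun i _ => h0 i _),
    integral_fintype_prod_eq_prod (fun i => (s i).indicator (gaussianPDFReal 0 1)),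
    ENNReal.ofReal_prod_of_nonneg fun i _ => integral_nonneg (h0 i)]
  refine prod_congr rfl fun i _ => ?_
  rw [integral_indicator (hs i), gaussianReal_apply_eq_integral _ one_ne_zero]

/-- thin shells -/
def shell (t : ℝ) (N : ℕ) : Set (Fin N → ℝ) := {y | |∑ j, y j ^ 2 - N| < t * √N}

theorem meas_shell (t : ℝ) (N : ℕ) : MeasurableSet (shell t N) :=
  measurableSet_lt (by fun_prop) measurable_const

theorem shell_mass : ∃ t : ℝ, 0 < t ∧ ∀ N, 1 ≤ N → 2⁻¹ ≤ gs (Fin N) (shell t N) := by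
  have hL : MemLp (fun x : ℝ => x ^ 2) 2 (gaussianReal 0 1) := by
    have h := memLp_id_gaussianReal' (μ := 0) (v := 1) 4 (by simp)
    haveI : ENNReal.HolderTriple 4 4 2 := ⟨by
      rw [show (4 : ℝ≥0∞) = 2 * 2 by norm_num, ENNReal.mul_inv (by simp) (by simp), ← add_mul,
        ENNReal.inv_two_add_inv_two, one_mul]⟩
    have := h.mul' (r := 2) h
    simpa [sq] using this
  obtain ⟨V, hV⟩ : ∃ V, V = Var[fun x : ℝ => x ^ 2; gaussianReal 0 1] := ⟨_, rfl⟩
  have hV0 : 0 ≤ V := hV ▸ variance_nonneg _ _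
  refine ⟨2 * V + 1, by positivity, fun N hN => ?_⟩
  have hN0 : (0 : ℝ) < N := by exact_mod_cast hN
  have m1 : ∀ i : Fin N, MemLp (fun y : Fin N → ℝ => y i ^ 2) 2 (gs (Fin N)) := fun i =>
    hL.comp_measurePreserving (measurePreserving_eval (fun _ => gaussianReal 0 1) i)
  have e : (∑ i : Fin N, fun y : Fin N → ℝ => y i ^ 2) = fun y => ∑ j, y j ^ 2 := by
    funext y; simp
  have hv := variance_sum_pi (μ := fun _ : Fin N => gaussianReal 0 1)
    (X := fun _ (x : ℝ) => x ^ 2) fun _ => hL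
  rw [e, ← hV, sum_const, card_univ, Fintype.card_fin, nsmul_eq_mul] at hv
  have h2 : ∫ x : ℝ, x ^ 2 ∂gaussianReal 0 1 = 1 := by
    have := variance_fun_id_gaussianReal (μ := 0) (v := 1)
    rw [variance_eq_integral measurable_id'.aemeasurable] at this
    simpa using this
  have hE : ∫ y : Fin N → ℝ, ∑ j, y j ^ 2 ∂gs (Fin N) = N := by
    rw [integral_finset_sum _ fun i _ => (m1 i).integrable one_le_two]
    have : ∀ i : Fin N, ∫ y : Fin N → ℝ, y i ^ 2 ∂gs (Fin N) = 1 := fun i =>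
      (mp_int (measurePreserving_eval (fun _ => gaussianReal 0 1) i)
        (F := fun x : ℝ => x ^ 2) (by fun_prop)).trans h2
    simp [this]
  have ch := meas_ge_le_variance_div_sq (μ := gs (Fin N)) (X := fun y => ∑ j, y j ^ 2)
    (memLp_finset_sum _ fun i _ => m1 i) (c := (2 * V + 1) * √N) (by positivity)
  rw [hE, show Var[fun y : Fin N → ℝ => ∑ j, y j ^ 2; gs (Fin N)] = N * V from hv] at ch
  have h3 : gs (Fin N) (shell (2 * V + 1) N)ᶜ ≤ 2⁻¹ := by
    refine le_trans (le_of_eq (congrArg _ ?_)) (ch.trans ?_)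
    · ext y; simp [shell]
    · rw [show (2⁻¹ : ℝ≥0∞) = ENNReal.ofReal 2⁻¹ by
        rw [ENNReal.ofReal_inv_of_pos two_pos]; simp]
      refine ENNReal.ofReal_le_ofReal ?_
      rw [mul_pow, sq_sqrt hN0.le, div_le_iff₀ (by positivity)]
      nlinarith [mul_nonneg hN0.le (sq_nonneg V)]
  rw [prob_compl_eq_one_sub (meas_shell _ _), tsub_le_iff_left] at h3
  rw [← ENNReal.add_le_add_iff_right (a := 2⁻¹) (by simp), ENNReal.inv_two_add_inv_two]
  exact h3

theorem proj_dist {N : ℕ} {y : Fin N → ℝ} {s : ℝ} (h0 : 0 < ∑ j, y j ^ 2)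
    (h : |∑ j, y j ^ 2 - N| ≤ s * √N) (hs : 0 ≤ s) : ∑ i, (proj N y i - y i) ^ 2 ≤ s ^ 2 := by
  obtain ⟨r, hr⟩ : ∃ r, r = √(∑ j, y j ^ 2) := ⟨_, rfl⟩
  have hr0 : 0 < r := hr ▸ sqrt_pos.2 h0
  have hr2 : r ^ 2 = ∑ j, y j ^ 2 := by rw [hr, sq_sqrt h0.le]
  have e : ∑ i, (proj N y i - y i) ^ 2 = (√N - r) ^ 2 := by
    have : ∀ i, (proj N y i - y i) ^ 2 = (√N * r⁻¹ - 1) ^ 2 * y i ^ 2 := fun i => by
      simp only [proj, ← hr]; ring
    simp only [this]
    rw [← mul_sum, ← hr2]
    field_simp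
  have hq : 0 ≤ √(N : ℝ) := sqrt_nonneg _
  have hq2 : √(N : ℝ) ^ 2 = N := sq_sqrt (Nat.cast_nonneg _)
  rw [← hr2] at h
  rw [e, ← sq_abs]
  refine pow_le_pow_left₀ (abs_nonneg _) (le_of_mul_le_mul_right ?_ (by positivity : 0 < √N + r)) 2
  have : |√N - r| * (√N + r) = |r ^ 2 - N| := by
    rw [← abs_of_pos (by positivity : 0 < √N + r), ← abs_mul, abs_sub_comm]
    congr 1
    nlinarith
  rw [this]
  nlinarith [mul_nonneg hs hr0.le]

theorem shell_pos {t : ℝ} (ht : 0 < t) {N : ℕ} (hN : ⌈t ^ 2⌉₊ + 1 ≤ N) {y : Fin N → ℝ}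
    (hy : y ∈ shell t N) : 0 < ∑ j, y j ^ 2 := by
  have h1 : t ^ 2 ≤ N := (Nat.le_ceil _).trans (by exact_mod_cast (by omega))
  have h2 : t ≤ √N := le_sqrt_of_sq_le h1
  have h3 := (abs_lt.1 (show |∑ j, y j ^ 2 - N| < t * √N from hy)).1
  have hq2 : √(N : ℝ) * √N = N := mul_self_sqrt (Nat.cast_nonneg _)
  nlinarith [mul_le_mul_of_nonneg_right h2 (sqrt_nonneg (N : ℝ))]

theorem meas_psi (N : ℕ) : Measurable fun r : ℝ =>
    ENNReal.ofReal ((√(2 * π))⁻¹ ^ N * exp (-r ^ 2 / 2)) := by fun_prop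

theorem mp_cond {t : ℝ} {N : ℕ} (hN : 1 ≤ N) (ne : gs (Fin N) (shell t N) ≠ 0) :
    MeasurePreserving (proj N) (cond (gs (Fin N)) (shell t N)) (sph N) := by
  obtain ⟨ψ, hψ, hg⟩ : ∃ ψ : ℝ → ℝ≥0∞, Measurable ψ ∧ gs (Fin N) =
      (volume : Measure (Fin N → ℝ)).withDensity fun y => ψ √(∑ j, y j ^ 2) :=
    ⟨_, meas_psi N, gs_eq N⟩
  obtain ⟨c, hc⟩ : ∃ c, c = (gs (Fin N) (shell t N))⁻¹ := ⟨_, rfl⟩
  have hS : MeasurableSet {r : ℝ | |r ^ 2 - N| < t * √N} :=
    measurableSet_lt (by fun_prop) measurable_const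
  obtain ⟨φ, hφ, hφ'⟩ : ∃ φ : ℝ → ℝ≥0∞, Measurable φ ∧ ∀ y : Fin N → ℝ,
      φ √(∑ j, y j ^ 2) = c * (shell t N).indicator (fun y => ψ √(∑ j, y j ^ 2)) y := by
    refine ⟨fun r => c * {r : ℝ | |r ^ 2 - N| < t * √N}.indicator ψ r,
      measurable_const.mul (hψ.indicator hS), fun y => ?_⟩
    have h2 := sq_sqrt (sum_nonneg fun j (_ : j ∈ univ) => sq_nonneg (y j))
    simp only [Set.indicator, shell, Set.mem_setOf_eq, h2]
  have hm : Measurable fun y : Fin N → ℝ => ψ √(∑ j, y j ^ 2) := hψ.comp (by fun_prop)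
  have e : cond (gs (Fin N)) (shell t N) =
      (volume : Measure (Fin N → ℝ)).withDensity fun y => φ √(∑ j, y j ^ 2) := by
    rw [ProbabilityTheory.cond, ← hc, hg, restrict_withDensity (meas_shell _ _),
      ← withDensity_indicator (meas_shell _ _),
      ← withDensity_smul _ (hm.indicator (meas_shell _ _))]
    congr 1
    funext y
    rw [hφ']
    rfl
  have hp : IsProbabilityMeasure (cond (gs (Fin N)) (shell t N)) := cond_isProbabilityMeasure ne
  rw [e] at hp ⊢
  exact radial hN hφ hp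

theorem cpl_sph : Nonempty (Cpl sph) := by
  obtain ⟨t, ht, hm⟩ := shell_mass
  have hγ : ∀ N, 1 ≤ N → MeasurePreserving (proj N) (gs (Fin N)) (sph N) := fun N hN => by
    have := radial hN (meas_psi N) (gs_eq N ▸ inferInstance)
    rwa [← gs_eq] at this
  have ne : ∀ N, 1 ≤ N → gs (Fin N) (shell t N) ≠ 0 := fun N hN h => by
    simpa [h] using hm N hN
  refine ⟨⟨⌈t ^ 2⌉₊ + 1, 4 * t, by positivity, fun N => gs (Fin N),
    fun N => cond (gs (Fin N)) (shell t N), proj, fun N hN => ?_, fun _ => inferInstance,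
    fun N hN => cond_isProbabilityMeasure (ne N (by omega)), fun N hN => hγ N (by omega),
    fun N hN => ?_, fun N hN => ?_, mp_app _, fun m n hm' hn' => ?_⟩⟩
  · rw [← (hγ N hN).map_eq]
    exact Measure.isProbabilityMeasure_map (meas_proj N).aemeasurable
  · exact mp_cond (by omega) (ne N (by omega))
  · intro A
    have h2 : (gs (Fin N) (shell t N))⁻¹ ≤ 2 := by
      simpa using ENNReal.inv_le_inv.2 (hm N (by omega))
    rw [ProbabilityTheory.cond, Measure.smul_apply, Measure.smul_apply, smul_eq_mul]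
    exact mul_le_mul' h2 (Measure.restrict_le_self A)
  · haveI : IsProbabilityMeasure (cond (gs (Fin n)) (shell t n)) :=
      cond_isProbabilityMeasure (ne n (by omega))
    filter_upwards [Measure.quasiMeasurePreserving_fst.ae (ae_cond_mem (meas_shell t m)),
      Measure.quasiMeasurePreserving_snd.ae (ae_cond_mem (meas_shell t n))] with y h1 h2
    have p1 := shell_pos ht hm' h1
    have p2 := shell_pos ht hn' h2
    have d1 := proj_dist p1 (le_of_lt h1) ht.le
    have d2 := proj_dist p2 (le_of_lt h2) ht.le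
    have e : ∑ j, (Fin.append y.1 y.2 : Fin (m + n) → ℝ) j ^ 2 =
        ∑ j, y.1 j ^ 2 + ∑ j, y.2 j ^ 2 := by
      simp only [Fin.sum_univ_add, Fin.append_left, Fin.append_right]
    have d3 := proj_dist (y := Fin.append y.1 y.2) (s := 2 * t) (by rw [e]; positivity) (by
      rw [e]
      have s1 : √(m : ℝ) ≤ √((m + n : ℕ) : ℝ) := sqrt_le_sqrt (by exact_mod_cast (by omega))
      have s2 : √(n : ℝ) ≤ √((m + n : ℕ) : ℝ) := sqrt_le_sqrt (by exact_mod_cast (by omega))
      have a1 := abs_lt.1 (show |∑ j, y.1 j ^ 2 - m| < t * √m from h1)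
      have a2 := abs_lt.1 (show |∑ j, y.2 j ^ 2 - n| < t * √n from h2)
      have s3 := mul_le_mul_of_nonneg_left s1 ht.le
      have s4 := mul_le_mul_of_nonneg_left s2 ht.le
      have s5 : ((m + n : ℕ) : ℝ) = m + n := by push_cast; rfl
      exact abs_le.2 ⟨by linarith, by linarith⟩) (by positivity)
    have d4 : ∑ i, (Fin.append (proj m y.1) (proj n y.2) i -
        (Fin.append y.1 y.2 : Fin (m + n) → ℝ) i) ^ 2 ≤ 2 * t ^ 2 := by
      simp only [Fin.sum_univ_add, Fin.append_left, Fin.append_right]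
      linarith
    have d5 : ∑ i, (proj (m + n) (Fin.append y.1 y.2) i -
        Fin.append (proj m y.1) (proj n y.2) i) ^ 2 ≤
        2 * ∑ i, (proj (m + n) (Fin.append y.1 y.2) i - Fin.append y.1 y.2 i) ^ 2 +
        2 * ∑ i, (Fin.append (proj m y.1) (proj n y.2) i -
          (Fin.append y.1 y.2 : Fin (m + n) → ℝ) i) ^ 2 := by
      rw [mul_sum, mul_sum, ← sum_add_distrib]
      refine sum_le_sum fun i _ => ?_
      generalize proj (m + n) (Fin.append y.1 y.2) i = a
      generalize Fin.append (proj m y.1) (proj n y.2) i = b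
      generalize Fin.append y.1 y.2 i = e
      nlinarith [sq_nonneg (a + b - 2 * e)]
    nlinarith

end Vale.Agent.P157
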