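import Vale.Agent.P157.Abs

/-! Approximate superadditivity and the limit. -/

namespace Vale.Agent.P157

open MeasureTheory Real Finset Filter Topology

variable {Γ Y Y' : Type} [MeasurableSpace Γ] [MeasurableSpace Y] [MeasurableSpace Y']
  {P : Measure Γ} [IsProbabilityMeasure P] {μ : Measure Y} [IsProbabilityMeasure μ] {L : ℝ}

/-- free energy with `m` identical patterns -/
noncomputable def AA (P : Measure Γ) (μ : Measure Y) (φ : Γ → Y → ℝ) (m : ℕ) : ℝ :=
  FE P μ (fun _ : Fin m => φ)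

theorem bd_zero (hL : 0 ≤ L) : Bd L (fun (_ : Γ) (_ : Y) => (0 : ℝ)) :=
  ⟨measurable_const, fun _ _ => by simpa using hL⟩

theorem bd_mask {κ : Type} [DecidableEq κ] {φ : Γ → Y → ℝ} (b : Bd L φ) (hL : 0 ≤ L)
    (T : Finset κ) (a : κ) : Bd L (if a ∈ T then φ else fun _ _ => 0) := by
  split_ifs
  exacts [b, bd_zero hL]

theorem AA_succ {φ : Γ → Y → ℝ} (b : Bd L φ) (hL : 0 ≤ L) (m : ℕ) :
    |AA P μ φ (m + 1) - AA P μ φ m| ≤ L := by
  have h := FE_mask (P := P) (μ := μ) b (univ.erase (0 : Fin (m + 1)))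
  have hc : (univ.erase (0 : Fin (m + 1))).card = m := by simp
  have h' : FE P μ (fun _ : Fin (univ.erase (0 : Fin (m + 1))).card => φ) = AA P μ φ m := by
    unfold AA; rw [hc]
  rw [h'] at h
  have e : ∀ (G : Fin (m + 1) → Γ) y, ∑ a, φ (G a) y =
      ∑ a, (if a ∈ univ.erase (0 : Fin (m + 1)) then φ else fun _ _ => 0) (G a) y + φ (G 0) y := by
    intro G y
    have : ∀ a, (if a ∈ univ.erase (0 : Fin (m + 1)) then φ else fun _ _ => 0) (G a) y =
        if a ∈ univ.erase (0 : Fin (m + 1)) then φ (G a) y else 0 :=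
      fun a => by split_ifs <;> rfl
    simp only [this, sum_ite_mem, univ_inter]
    rw [sum_erase_add _ _ (mem_univ _)]
  have h1 := FE_le (P := P) (μ := μ) (h := fun _ : Fin (m + 1) => φ) (fun _ => b)
    (bd_mask b hL (univ.erase (0 : Fin (m + 1)))) (D := L) fun G y => by
      rw [e G y]; linarith [(abs_le.1 (b.2 (G 0) y)).2]
  have h2 := FE_le (P := P) (μ := μ) (h' := fun _ : Fin (m + 1) => φ)
    (bd_mask b hL (univ.erase (0 : Fin (m + 1)))) (fun _ => b) (D := L) fun G y => by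
      rw [e G y]; linarith [(abs_le.1 (b.2 (G 0) y)).1]
  rw [h] at h1 h2
  unfold AA at *
  exact abs_le.2 ⟨by linarith, by linarith⟩

theorem AA_lip {φ : Γ → Y → ℝ} (b : Bd L φ) (hL : 0 ≤ L) (m k : ℕ) :
    AA P μ φ m - L * |(k : ℝ) - m| ≤ AA P μ φ k := by
  have key : ∀ m j : ℕ, |AA P μ φ (m + j) - AA P μ φ m| ≤ L * j := by
    intro m j
    induction j with
    | zero => simp
    | succ j ih =>
      have := AA_succ (P := P) (μ := μ) b hL (m + j)
      rw [← add_assoc]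
      push_cast
      have h3 := abs_sub_le (AA P μ φ (m + j + 1)) (AA P μ φ (m + j)) (AA P μ φ m)
      linarith
  rcases le_total m k with h | h
  · obtain ⟨j, rfl⟩ := Nat.exists_eq_add_of_le h
    have := (abs_le.1 (key m j)).1
    rw [show ((m + j : ℕ) : ℝ) - m = j by push_cast; ring, Nat.abs_cast]
    linarith
  · obtain ⟨j, rfl⟩ := Nat.exists_eq_add_of_le h
    have := (abs_le.1 (key k j)).2
    rw [show (k : ℝ) - ((k + j : ℕ) : ℝ) = -j by push_cast; ring, abs_neg, Nat.abs_cast]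
    linarith

theorem sqrt_comb {p X Z : ℝ} (h0 : 0 ≤ p) (h1 : p ≤ 1) (hX : 0 ≤ X) (hZ : 0 ≤ Z) :
    p * √X + (1 - p) * √Z ≤ √(p * X + (1 - p) * Z) := by
  refine le_sqrt_of_sq_le ?_
  have a := sq_sqrt hX
  have b := sq_sqrt hZ
  have : 0 ≤ p * (1 - p) * (√X - √Z) ^ 2 := mul_nonneg (mul_nonneg h0 (by linarith)) (sq_nonneg _)
  nlinarith

theorem superadd {μ' : Measure Y'} [IsProbabilityMeasure μ'] {φ0 : Γ → Y × Y' → ℝ}
    {φ1 : Γ → Y → ℝ} {φ2 : Γ → Y' → ℝ} (hL : 0 ≤ L) (b0 : Bd L φ0) (b1 : Bd L φ1) (b2 : Bd L φ2)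
    {p ε : ℝ} (p0 : 0 ≤ p) (p1 : p ≤ 1)
    (H : ∀ ϖ : Measure (Y × Y'), IsProbabilityMeasure ϖ → ϖ ≪ μ.prod μ' →
      p * one P ϖ (fun g y => φ1 g y.1) + (1 - p) * one P ϖ (fun g y => φ2 g y.2) - ε ≤
        one P ϖ φ0) (M a b : ℕ) :
    AA P μ φ1 a + AA P μ' φ2 b - M * |ε| -
      L * (2 * √((p * M - a) ^ 2 + M * (p * (1 - p))) + |(M : ℝ) - a - b|) ≤
      AA P (μ.prod μ') φ0 M := by
  classical
  have c1 : Bd L (fun g (y : Y × Y') => φ1 g y.1) :=
    ⟨b1.1.comp (f := fun z : Γ × Y × Y' => (z.1, z.2.1)) (by fun_prop), fun g y => b1.2 g y.1⟩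
  have c2 : Bd L (fun g (y : Y × Y') => φ2 g y.2) :=
    ⟨b2.1.comp (f := fun z : Γ × Y × Y' => (z.1, z.2.2)) (by fun_prop), fun g y => b2.2 g y.2⟩
  let h : Finset (Fin M) → Finset (Fin M) → Fin M → Γ → Y × Y' → ℝ := fun D T c =>
    if c ∈ D then φ0 else if c ∈ T then (fun g y => φ1 g y.1) else fun g y => φ2 g y.2
  have hb : ∀ D T c, Bd L (h D T c) := fun D T c => by
    simp only [h]; split_ifs
    exacts [b0, c1, c2]
  have key : ∀ D T : Finset (Fin M), Disjoint D T →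
      AA P μ φ1 a + AA P μ' φ2 b - D.card * |ε| -
      L * (2 * √((T.card + p * D.card - a) ^ 2 + D.card * (p * (1 - p))) + |(M : ℝ) - a - b|) ≤
      FE P (μ.prod μ') (h D T) := by
    intro D
    induction D using Finset.induction_on with
    | empty =>
      intro T _
      have e : h ∅ T = fun c g y => (if c ∈ T then φ1 else fun _ _ => 0) g y.1 +
          (if c ∈ Tᶜ then φ2 else fun _ _ => 0) g y.2 := by
        funext c g y
        by_cases hc : c ∈ T <;> simp [h, hc]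
      rw [e, FE_prod (bd_mask b1 hL T) (bd_mask b2 hL Tᶜ), FE_mask b1, FE_mask b2]
      have l1 := AA_lip (P := P) (μ := μ) b1 hL a T.card
      have l2 := AA_lip (P := P) (μ := μ') b2 hL b Tᶜ.card
      have hc : (Tᶜ.card : ℝ) = M - T.card := by
        have := card_add_card_compl T
        rw [Fintype.card_fin] at this
        have h2 : (T.card : ℝ) + Tᶜ.card = M := by exact_mod_cast this
        linarith
      have l3 : |(Tᶜ.card : ℝ) - b| ≤ |(T.card : ℝ) - a| + |(M : ℝ) - a - b| := by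
        rw [hc, show (M : ℝ) - T.card - b = -((T.card : ℝ) - a) + ((M : ℝ) - a - b) by ring]
        exact (abs_add_le _ _).trans (by rw [abs_neg])
      simp only [card_empty, Nat.cast_zero, mul_zero, zero_mul, add_zero, sub_zero, sqrt_sq_eq_abs]
      have l4 := mul_le_mul_of_nonneg_left l3 hL
      unfold AA at *
      linarith
    | insert c D hc ih =>
      intro T hT
      have hcT : c ∉ T := fun h => disjoint_left.1 hT (mem_insert_self _ _) h
      have hDT : Disjoint D T := hT.mono_left (subset_insert _ _)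
      have i1 := ih (insert c T) (disjoint_insert_right.2 ⟨hc, hDT⟩)
      have i2 := ih T hDT
      have r := replace (P := P) (μ := μ.prod μ') (hb (insert c D) T) (hb D (insert c T)) (hb D T) c
        (fun x hx => by simp [h, hx]) (fun x hx => by simp [h, hx]) (p := p) (ε := ε)
        (by simpa [h, hc, hcT] using H)
      rw [card_insert_of_notMem hcT] at i1
      rw [card_insert_of_notMem hc]
      have hv : 0 ≤ (D.card : ℝ) * (p * (1 - p)) := by
        have : 0 ≤ 1 - p := by linarith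
        positivity
      have s := sqrt_comb p0 p1
        (X := (((T.card + 1 : ℕ) : ℝ) + p * D.card - a) ^ 2 + D.card * (p * (1 - p)))
        (Z := ((T.card : ℝ) + p * D.card - a) ^ 2 + D.card * (p * (1 - p)))
        (by positivity) (by positivity)
      have e : p * ((((T.card + 1 : ℕ) : ℝ) + p * D.card - a) ^ 2 + D.card * (p * (1 - p))) +
          (1 - p) * (((T.card : ℝ) + p * D.card - a) ^ 2 + D.card * (p * (1 - p))) =
          ((T.card : ℝ) + p * ((D.card + 1 : ℕ) : ℝ) - a) ^ 2 +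
            ((D.card + 1 : ℕ) : ℝ) * (p * (1 - p)) := by
        push_cast; ring
      rw [e] at s
      have j1 := mul_le_mul_of_nonneg_left i1 p0
      have j2 := mul_le_mul_of_nonneg_left i2 (sub_nonneg.2 p1)
      have j3 := mul_le_mul_of_nonneg_left s hL
      have j4 := le_abs_self ε
      have j5 : ((D.card + 1 : ℕ) : ℝ) * |ε| = D.card * |ε| + |ε| := by push_cast; ring
      rw [j5]
      nlinarith
  have := key univ ∅ (disjoint_empty_right _)
  have e : h univ ∅ = fun _ => φ0 := by funext c; simp [h]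
  rw [e] at this
  simpa [AA] using this

/-- balanced superadditivity gives a limit -/
theorem lim_of_balanced {b : ℕ → ℝ} {B : ℝ} {n0 : ℕ} (hB : ∀ n : ℕ, 1 ≤ n → |b n| ≤ B * n)
    (h : ∀ m n : ℕ, n0 ≤ m → n0 ≤ n → m ≤ 2 * n → n ≤ 2 * m → b m + b n ≤ b (m + n)) :
    ∃ l, Tendsto (fun n : ℕ => b n / n) atTop (𝓝 l) := by
  have key : ∀ k, n0 ≤ k → ∀ q r : ℕ, r ≤ k → q * b k + b (k + r) ≤ b ((q + 1) * k + r) := by
    intro k hk q
    induction q using Nat.strong_induction_on with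
    | _ q ih =>
      intro r hr
      rcases Nat.eq_zero_or_pos q with rfl | hq
      · simp
      obtain ⟨s, t, hs, ht⟩ : ∃ s t : ℕ, s + t + 1 = q ∧ (s = t ∨ s = t + 1) :=
        ⟨q / 2, (q - 1) / 2, by omega, by omega⟩
      have a1 := ih s (by omega) 0 (Nat.zero_le _)
      have a2 := ih t (by omega) r hr
      have a3 := h ((s + 1) * k + 0) ((t + 1) * k + r) (by nlinarith) (by nlinarith)
        (by rcases ht with rfl | rfl <;> nlinarith) (by rcases ht with rfl | rfl <;> nlinarith)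
      have e : (s + 1) * k + 0 + ((t + 1) * k + r) = (q + 1) * k + r := by rw [← hs]; ring
      rw [e] at a3
      have e2 : (q : ℝ) = s + t + 1 := by rw [← hs]; push_cast; ring
      rw [e2]
      simp only [add_zero] at a1 a3
      linarith
  have hbd : ∀ n : ℕ, 1 ≤ n → |b n / n| ≤ B := fun n hn => by
    have : (0 : ℝ) < n := by exact_mod_cast hn
    rw [abs_div, abs_of_pos this, div_le_iff₀ this]
    exact hB n hn
  have hB0 : 0 ≤ B := (abs_nonneg _).trans (hbd 1 le_rfl)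
  have up : IsBoundedUnder (· ≤ ·) atTop (fun n : ℕ => b n / n) :=
    isBoundedUnder_of_eventually_le (a := B)
      (eventually_atTop.2 ⟨1, fun n hn => (abs_le.1 (hbd n hn)).2⟩)
  have lo : IsBoundedUnder (· ≥ ·) atTop (fun n : ℕ => b n / n) :=
    isBoundedUnder_of_eventually_ge (a := -B)
      (eventually_atTop.2 ⟨1, fun n hn => (abs_le.1 (hbd n hn)).1⟩)
  refine ⟨liminf (fun n : ℕ => b n / n) atTop, tendsto_of_le_liminf_of_limsup_le le_rfl ?_ up lo⟩
  refine limsup_le_of_le lo.isCoboundedUnder_le (eventually_atTop.2 ⟨max n0 1, fun k hk => ?_⟩)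
  have hk0 : n0 ≤ k := (le_max_left _ _).trans hk
  have hk1 : 1 ≤ k := (le_max_right _ _).trans hk
  have hkR : (0 : ℝ) < k := by exact_mod_cast hk1
  have t : Tendsto (fun n : ℕ => b k / k - (4 * B * k) / n) atTop (𝓝 (b k / k - 0)) :=
    tendsto_const_nhds.sub (tendsto_const_div_atTop_nhds_zero_nat _)
  rw [sub_zero] at t
  rw [← t.liminf_eq]
  refine liminf_le_liminf (eventually_atTop.2 ⟨k, fun n hn => ?_⟩) t.isBoundedUnder_ge
    up.isCoboundedUnder_ge
  obtain ⟨q, r, hr, rfl⟩ : ∃ q r : ℕ, r ≤ k ∧ n = (q + 1) * k + r := by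
    refine ⟨n / k - 1, n % k, (Nat.mod_lt _ hk1).le, ?_⟩
    have := Nat.div_pos hn hk1
    rw [Nat.sub_add_cancel this, mul_comm, Nat.div_add_mod]
  have a := key k hk0 q r hr
  have hn0 : (0 : ℝ) < ((q + 1) * k + r : ℕ) := by exact_mod_cast (by nlinarith)
  have hrR : (r : ℝ) ≤ k := by exact_mod_cast hr
  have hr0 : (0 : ℝ) ≤ r := Nat.cast_nonneg _
  have b1 := (abs_le.1 (hB (k + r) (by omega))).1
  have b2 := abs_le.1 (hbd k hk1)
  obtain ⟨x, hx⟩ : ∃ x, x = b k / k := ⟨_, rfl⟩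
  have hx' : b k = x * k := by rw [hx]; field_simp
  rw [← hx] at b2 ⊢
  rw [sub_le_iff_le_add, ← add_div, le_div_iff₀ hn0]
  rw [hx'] at a
  push_cast at a b1 ⊢
  have b3 : x * (k + r) ≤ B * (k + r) := mul_le_mul_of_nonneg_right b2.2 (by positivity)
  have b4 : B * r ≤ B * k := mul_le_mul_of_nonneg_left hrR hB0
  nlinarith

theorem lim_of_near {a : ℕ → ℝ} {B K : ℝ} {n0 : ℕ} (hK : 0 ≤ K)
    (hB : ∀ n : ℕ, 1 ≤ n → |a n| ≤ B * n)
    (h : ∀ m n : ℕ, n0 ≤ m → n0 ≤ n → a m + a n - K * √((m : ℝ) + n) ≤ a (m + n)) :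
    ∃ l, Tendsto (fun n : ℕ => a n / n) atTop (𝓝 l) := by
  obtain ⟨l, hl⟩ := lim_of_balanced (b := fun n => a n - 10 * K * √n) (B := B + 10 * K) (n0 := n0)
    (fun n hn => by
      have h1 : (1 : ℝ) ≤ n := by exact_mod_cast hn
      have h2 : √(n : ℝ) ≤ n := sqrt_le_iff.2 ⟨by positivity, by nlinarith⟩
      have h3 := mul_le_mul_of_nonneg_left h2 hK
      have h4 : 0 ≤ K * √(n : ℝ) := by positivity
      have := abs_le.1 (hB n hn)
      exact abs_le.2 ⟨by linarith, by nlinarith⟩)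
    (fun m n hm hn h1 h2 => by
      have := h m n hm hn
      have h1' : (m : ℝ) ≤ 2 * n := by exact_mod_cast h1
      have h2' : (n : ℝ) ≤ 2 * m := by exact_mod_cast h2
      have s1 : 0.55 * √((m : ℝ) + n) ≤ √(m : ℝ) := by
        refine le_sqrt_of_sq_le ?_
        rw [mul_pow, sq_sqrt (by positivity)]
        have : (0 : ℝ) ≤ m := by positivity
        nlinarith
      have s2 : 0.55 * √((m : ℝ) + n) ≤ √(n : ℝ) := by
        refine le_sqrt_of_sq_le ?_
        rw [mul_pow, sq_sqrt (by positivity)]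
        have : (0 : ℝ) ≤ n := by positivity
        nlinarith
      have s3 := mul_le_mul_of_nonneg_left s1 hK
      have s4 := mul_le_mul_of_nonneg_left s2 hK
      push_cast
      nlinarith)
  have t : Tendsto (fun n : ℕ => 10 * K * (√(n : ℝ))⁻¹) atTop (𝓝 (10 * K * 0)) :=
    (tendsto_inv_atTop_zero.comp (tendsto_sqrt_atTop.comp tendsto_natCast_atTop_atTop)).const_mul _
  refine ⟨l + 10 * K * 0, (hl.add t).congr' (eventually_atTop.2 ⟨1, fun n hn => ?_⟩)⟩
  have h1 : (0 : ℝ) < n := by exact_mod_cast hn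
  have h2 : 0 < √(n : ℝ) := sqrt_pos.2 h1
  have h3 : (√(n : ℝ))⁻¹ = √(n : ℝ) / n := by
    field_simp
    rw [sq_sqrt h1.le]
  simp only [h3]
  ring

theorem lim_of_approx {u : ℕ → ℝ}
    (h : ∀ ε > 0, ∃ v : ℕ → ℝ, (∃ l, Tendsto v atTop (𝓝 l)) ∧ ∀ n, |u n - v n| ≤ ε) :
    ∃ l, Tendsto u atTop (𝓝 l) := by
  refine cauchySeq_tendsto_of_complete (Metric.cauchySeq_iff.2 fun ε hε => ?_)
  obtain ⟨v, ⟨l, hl⟩, hv⟩ := h (ε / 4) (by positivity)
  obtain ⟨N, hN⟩ := Metric.cauchySeq_iff.1 hl.cauchySeq (ε / 4) (by positivity)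
  refine ⟨N, fun m hm n hn => ?_⟩
  have h1 := hN m hm n hn
  rw [Real.dist_eq] at h1 ⊢
  have h2 := abs_le.1 (hv m)
  have h3 := abs_le.1 (hv n)
  have h4 := abs_lt.1 h1
  exact abs_lt.2 ⟨by linarith, by linarith⟩

end Vale.Agent.P157
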